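import Vale.Agent.P034.Params

/-!
# P034: definitions for the constant-factor theorem
-/

namespace Vale.Agent.P034

open Finset

variable {X : Type*}

/-- The mass `∑_{S ⊆ T} g(S)`. -/
noncomputable def ms (g : Finset X → ℝ) (T : Finset X) : ℝ := ∑ S ∈ T.powerset, g S

/-- The sets satisfying `F` have a cover of cost at most `c` at `p`. -/
def Cov (p : ℝ) (F : Finset X → Prop) (c : ℝ) : Prop :=
  ∃ G : Finset (Finset X), (∀ T, F T → ∃ S ∈ G, S ⊆ T) ∧ cost p G ≤ c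

/-- The link weight `∑_{S ⊇ A} g(S) ρ^{|S \ A|}`. -/
noncomputable def Lam [Fintype X] [DecidableEq X] (g : Finset X → ℝ) (ρ : ℝ) (A : Finset X) : ℝ :=
  ∑ S ∈ univ.filter (fun S => A ⊆ S), g S * ρ ^ (S \ A).card

/-- The exponents `b_t`. -/
def bb : ℕ → ℕ
  | 0 => 1
  | t + 1 => (32 * (t + 1) * bb t) ^ 2

/-- The scales `l_t`. -/
def ell (t : ℕ) : ℕ := 8 ^ (t + 1)

/-- The large constant. -/
noncomputable def CC : ℝ := 2 ^ 30

/-- The constants `B_t`. -/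
noncomputable def BB (t : ℕ) : ℝ := CC ^ t / 4

/-- Theorem A at uniformity `t`. -/
def ThmA (X : Type*) [Fintype X] [DecidableEq X] (p : ℝ) (t : ℕ) : Prop :=
  ∀ (g : Finset X → ℝ) (θ : ℝ) (l : ℕ), (∀ S, 0 ≤ g S) → (∀ S, g S ≠ 0 → S.card = t) →
    0 < θ → fcost g (2 * p) ≤ θ → ell t ≤ l →
    (∀ A : Finset X, A.Nonempty → (l : ℝ) ^ (bb t) * Lam g (2 * p) A ≤ θ) →
    Cov p (fun T => BB t * θ < ms g T) ((1 / 2) ^ l)

/-- The part of `g` on the sets with `θ < N g(S)`. -/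
noncomputable def big (g : Finset X → ℝ) (θ N : ℝ) : Finset X → ℝ :=
  open Classical in fun S => if θ < N * g S then g S else 0

/-- The decomposition lemma at uniformity `t`. -/
def Decomp (X : Type*) [Fintype X] [DecidableEq X] (p : ℝ) (t : ℕ) : Prop :=
  ∀ (g : Finset X → ℝ) (θ : ℝ) (l : ℕ), (∀ S, 0 ≤ g S) → (∀ S, g S ≠ 0 → S.card = t) →
    0 < θ → fcost g (2 * p) ≤ θ → ell t ≤ l →
    ∃ (G : ℕ → Finset X → ℝ) (τ : ℕ → ℝ),
      (∀ e ∈ Ico 1 t, (∀ S, 0 ≤ G e S) ∧ (∀ S, G e S ≠ 0 → S.card = e) ∧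
        fcost (G e) (2 * p) ≤ τ e ∧ θ ≤ 4 ^ t * τ e ∧
        ∀ A, Lam (G e) (2 * p) A ≤ 2 * Lam g (2 * p) A) ∧
      ∑ e ∈ Ico 1 t, τ e ≤ 3 / 2 * θ ∧
      Cov p (fun T => ms (big g θ ((l : ℝ) ^ (bb t))) T + 32 * θ +
        ∑ e ∈ Ico 1 t, BB (t - e) * ms (G e) T < ms g T) (1 / 4 * (1 / 2) ^ l)

/-- The least `k` with `θ ≤ 2^k Λ`. -/
noncomputable def kk (θ Λ : ℝ) : ℕ := sInf {k : ℕ | θ ≤ 2 ^ k * Λ}

/-- The scale `l_E`. -/
noncomputable def lE [Fintype X] [DecidableEq X] (g : Finset X → ℝ) (ρ θ : ℝ) (t l : ℕ)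
    (E : Finset X) : ℕ := l + 8 ^ t + kk θ (Lam g ρ E)

/-- `E` witnesses that `S` is of the first type. -/
def Wit [Fintype X] [DecidableEq X] (g : Finset X → ℝ) (ρ θ : ℝ) (t l : ℕ)
    (E S : Finset X) : Prop :=
  E.Nonempty ∧ E ⊂ S ∧ ∀ D : Finset X, D.Nonempty → D ⊆ S \ E →
    4 ^ t * (lE g ρ θ t l E : ℝ) ^ (bb (t - 1)) * Lam g ρ (E ∪ D) ≤ Lam g ρ E

/-- The contracted function `G_e`. -/
noncomputable def GI [Fintype X] [DecidableEq X] (g : Finset X → ℝ) (ρ : ℝ) (t : ℕ)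
    (I : Finset (Finset X)) (E : Finset X → Finset X) (e : ℕ) : Finset X → ℝ :=
  fun F => if F.card = e then
    (∑ S ∈ I.filter (fun S => E S = F), g S * ρ ^ (t - e)) + (1 / 4) ^ t * Lam g ρ F else 0

/-! ### Basic facts -/

theorem Cov.mono {p : ℝ} {F F' : Finset X → Prop} {c c' : ℝ} (h : Cov p F c)
    (hF : ∀ T, F' T → F T) (hc : c ≤ c') : Cov p F' c' := by
  obtain ⟨G, hG, hGc⟩ := h
  exact ⟨G, fun T hT => hG T (hF T hT), hGc.trans hc⟩

theorem Cov.of_subset {p : ℝ} {F F' : Finset X → Prop} {c : ℝ} (h : Cov p F c)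
    (hF : ∀ T, F' T → ∃ U ⊆ T, F U) : Cov p F' c := by
  obtain ⟨G, hG, hGc⟩ := h
  refine ⟨G, fun T hT => ?_, hGc⟩
  obtain ⟨U, hU, hFU⟩ := hF T hT
  obtain ⟨S, hS, hSU⟩ := hG U hFU
  exact ⟨S, hS, hSU.trans hU⟩

theorem Cov.or {p : ℝ} (hp : 0 ≤ p) {F F' : Finset X → Prop} {c c' : ℝ}
    (h : Cov p F c) (h' : Cov p F' c') : Cov p (fun T => F T ∨ F' T) (c + c') := by
  classical
  obtain ⟨G, hG, hGc⟩ := h
  obtain ⟨G', hG', hGc'⟩ := h'
  refine ⟨G ∪ G', ?_, (cost_union_le hp G G').trans (add_le_add hGc hGc')⟩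
  rintro T (hT | hT)
  · obtain ⟨S, hS, hST⟩ := hG T hT
    exact ⟨S, mem_union_left _ hS, hST⟩
  · obtain ⟨S, hS, hST⟩ := hG' T hT
    exact ⟨S, mem_union_right _ hS, hST⟩

theorem Cov.exists_mem {p : ℝ} (hp : 0 ≤ p) {ι : Type*} (s : Finset ι)
    {F : ι → Finset X → Prop} {c : ι → ℝ} (h : ∀ i ∈ s, Cov p (F i) (c i)) :
    Cov p (fun T => ∃ i ∈ s, F i T) (∑ i ∈ s, c i) := by
  classical
  choose! G hG hGc using h
  refine ⟨s.biUnion G, ?_, (cost_biUnion_le hp s G).trans (sum_le_sum hGc)⟩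
  rintro T ⟨i, hi, hT⟩
  obtain ⟨S, hS, hST⟩ := hG i hi T hT
  exact ⟨S, mem_biUnion.2 ⟨i, hi, hS⟩, hST⟩

theorem Cov.nonneg {p : ℝ} (hp : 0 ≤ p) {F : Finset X → Prop} {c : ℝ} (h : Cov p F c) : 0 ≤ c := by
  obtain ⟨G, _, hG⟩ := h
  exact (cost_nonneg hp G).trans hG

/-- Nothing to cover. -/
theorem Cov.of_false {p : ℝ} {F : Finset X → Prop} {c : ℝ} (hF : ∀ T, ¬ F T) (hc : 0 ≤ c) :
    Cov p F c :=
  ⟨∅, fun T hT => absurd hT (hF T), by simpa [cost] using hc⟩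

theorem ms_nonneg {g : Finset X → ℝ} (hg : ∀ S, 0 ≤ g S) (T : Finset X) : 0 ≤ ms g T :=
  sum_nonneg fun S _ => hg S

theorem ms_mono {g : Finset X → ℝ} (hg : ∀ S, 0 ≤ g S) {T T' : Finset X} (h : T ⊆ T') :
    ms g T ≤ ms g T' :=
  sum_le_sum_of_subset_of_nonneg (powerset_mono.2 h) fun S _ _ => hg S

theorem ms_add (g h : Finset X → ℝ) (T : Finset X) :
    ms (fun S => g S + h S) T = ms g T + ms h T := sum_add_distrib

theorem ms_mul (c : ℝ) (g : Finset X → ℝ) (T : Finset X) :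
    ms (fun S => c * g S) T = c * ms g T := by
  unfold ms
  rw [mul_sum]

theorem ms_sum {ι : Type*} (s : Finset ι) (g : ι → Finset X → ℝ) (T : Finset X) :
    ms (fun S => ∑ i ∈ s, g i S) T = ∑ i ∈ s, ms (g i) T := sum_comm

theorem ms_congr {g h : Finset X → ℝ} {T : Finset X} (H : ∀ S ⊆ T, g S = h S) :
    ms g T = ms h T := sum_congr rfl fun S hS => H S (mem_powerset.1 hS)

theorem ms_le {g h : Finset X → ℝ} {T : Finset X} (H : ∀ S ⊆ T, g S ≤ h S) :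
    ms g T ≤ ms h T := sum_le_sum fun S hS => H S (mem_powerset.1 hS)

section
variable [Fintype X]

theorem fcost_nonneg {g : Finset X → ℝ} (hg : ∀ S, 0 ≤ g S) {p : ℝ} (hp : 0 ≤ p) :
    0 ≤ fcost g p := sum_nonneg fun S _ => mul_nonneg (hg S) (pow_nonneg hp _)

theorem fcost_add (g h : Finset X → ℝ) (p : ℝ) :
    fcost (fun S => g S + h S) p = fcost g p + fcost h p := by
  unfold fcost
  rw [← sum_add_distrib]
  exact sum_congr rfl fun S _ => by ring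

theorem fcost_mul (c : ℝ) (g : Finset X → ℝ) (p : ℝ) :
    fcost (fun S => c * g S) p = c * fcost g p := by
  unfold fcost
  rw [mul_sum]
  exact sum_congr rfl fun S _ => by ring

theorem fcost_unif {g : Finset X → ℝ} {t : ℕ} (ht : ∀ S, g S ≠ 0 → S.card = t) (p : ℝ) :
    fcost g p = ∑ S : Finset X, g S * p ^ t := by
  refine sum_congr rfl fun S _ => ?_
  by_cases h : g S = 0
  · rw [h]; simp
  · rw [ht S h]

variable [DecidableEq X]

theorem Lam_nonneg {g : Finset X → ℝ} (hg : ∀ S, 0 ≤ g S) {ρ : ℝ} (hρ : 0 ≤ ρ)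
    (A : Finset X) : 0 ≤ Lam g ρ A :=
  sum_nonneg fun S _ => mul_nonneg (hg S) (pow_nonneg hρ _)

theorem Lam_empty (g : Finset X → ℝ) (ρ : ℝ) : Lam g ρ ∅ = fcost g ρ := by
  unfold Lam fcost
  simp

theorem Lam_unif {g : Finset X → ℝ} {t : ℕ} (ht : ∀ S, g S ≠ 0 → S.card = t) (ρ : ℝ)
    (A : Finset X) :
    Lam g ρ A = ∑ S ∈ univ.filter (fun S => A ⊆ S), g S * ρ ^ (t - A.card) := by
  refine sum_congr rfl fun S hS => ?_
  by_cases h : g S = 0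
  · rw [h]; simp
  · rw [card_sdiff_of_subset (mem_filter.1 hS).2, ht S h]

theorem Lam_self_unif {g : Finset X → ℝ} {t : ℕ} (ht : ∀ S, g S ≠ 0 → S.card = t) (ρ : ℝ)
    {S : Finset X} (hS : S.card = t) : Lam g ρ S = g S := by
  unfold Lam
  rw [sum_eq_single S]
  · simp
  · intro T hT hne
    have h1 := (mem_filter.1 hT).2
    by_cases h : g T = 0
    · rw [h]; simp
    · exact absurd (eq_of_subset_of_card_le h1 (by rw [ht T h, hS])).symm hne
  · intro h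
    exact absurd (mem_filter.2 ⟨mem_univ _, Subset.refl S⟩) h

theorem Lam_ge_self {g : Finset X → ℝ} (hg : ∀ S, 0 ≤ g S) {ρ : ℝ} (hρ : 0 ≤ ρ)
    (S : Finset X) : g S ≤ Lam g ρ S := by
  unfold Lam
  have := single_le_sum (s := univ.filter (fun T => S ⊆ T)) (f := fun T => g T * ρ ^ (T \ S).card)
    (fun T _ => mul_nonneg (hg T) (pow_nonneg hρ _)) (mem_filter.2 ⟨mem_univ S, Subset.refl S⟩)
  simpa using this

end

theorem bb_zero : bb 0 = 1 := rfl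

theorem bb_succ (t : ℕ) : bb (t + 1) = (32 * (t + 1) * bb t) ^ 2 := rfl

theorem bb_pos (t : ℕ) : 1 ≤ bb t := by
  induction t with
  | zero => exact le_rfl
  | succ t ih =>
    rw [bb_succ]
    exact Nat.one_le_pow _ _ (Nat.mul_pos (by positivity) ih)

theorem bb_le_succ (t : ℕ) : bb t ≤ bb (t + 1) := by
  rw [bb_succ]
  have h1 := bb_pos t
  have h2 : bb t ≤ 32 * (t + 1) * bb t := Nat.le_mul_of_pos_left _ (by positivity)
  calc bb t ≤ 32 * (t + 1) * bb t := h2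
    _ ≤ (32 * (t + 1) * bb t) ^ 2 := Nat.le_self_pow (by norm_num) _

theorem bb_mono : Monotone bb := monotone_nat_of_le_succ bb_le_succ

theorem CC_pos : 0 < CC := by unfold CC; positivity

theorem BB_nonneg (t : ℕ) : 0 ≤ BB t := by
  unfold BB
  have := CC_pos
  positivity

end Vale.Agent.P034
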