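import Vale.Agent.P034.Tal.Jump

/-!
# P034: no seeds when the links are small
-/

namespace Vale.Agent.P034

open Finset

variable {X : Type*} [Fintype X] [DecidableEq X]

theorem card_small_subsets (W : Finset X) (t : ℕ) :
    (W.powerset.filter (fun A => A.card ≤ t)).card ≤ (W.card + 1) ^ t := by
  induction t with
  | zero =>
    have : W.powerset.filter (fun A => A.card ≤ 0) = {∅} := by
      ext A
      simp only [mem_filter, mem_powerset, nonpos_iff_eq_zero, card_eq_zero, mem_singleton]
      exact ⟨fun h => h.2, fun h => ⟨h ▸ empty_subset _, h⟩⟩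
    rw [this]; simp
  | succ t ih =>
    have hsub : W.powerset.filter (fun A => A.card ≤ t + 1) ⊆
        ((W.powerset.filter (fun A => A.card ≤ t)) ×ˢ (insertNone W)).image
          (fun x => match x.2 with
            | none => x.1
            | some a => insert a x.1) := by
      intro A hA
      obtain ⟨hA1, hA2⟩ := mem_filter.1 hA
      rw [mem_powerset] at hA1
      rw [mem_image]
      rcases A.eq_empty_or_nonempty with h | ⟨a, ha⟩
      · exact ⟨(∅, none), by simp, by simp [h]⟩
      · refine ⟨(A.erase a, some a), ?_, ?_⟩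
        · rw [mem_product]
          refine ⟨mem_filter.2 ⟨mem_powerset.2 ((erase_subset _ _).trans hA1), ?_⟩, ?_⟩
          · simp only
            rw [card_erase_of_mem ha]; omega
          · simpa using hA1 ha
        · simp [insert_erase ha]
    calc _ ≤ _ := card_le_card hsub
      _ ≤ _ := card_image_le
      _ = (W.powerset.filter (fun A => A.card ≤ t)).card * (W.card + 1) := by
        rw [card_product, card_insertNone]
      _ ≤ _ := by rw [pow_succ]; exact Nat.mul_le_mul_right _ ih

theorem boost_le {g : Finset X → ℝ} (hg : ∀ S, 0 ≤ g S) {t : ℕ}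
    (ht : ∀ S, g S ≠ 0 → S.card ≤ t) {ρ : ℝ} (hρ : 0 ≤ ρ) {Y : ℝ} (hY : 0 ≤ Y)
    (hL : ∀ A : Finset X, A.Nonempty → Lam g ρ A ≤ Y) {r : ℕ} {W : Finset X}
    (hW : W.card ≤ t * r) : boost g ρ W ≤ fcost g ρ + (t * r + 1) ^ t * Y := by
  have h1 : boost g ρ W ≤ ∑ A ∈ W.powerset.filter (fun A => A.card ≤ t), Lam g ρ A := by
    unfold boost Lam
    calc ∑ S : Finset X, g S * ρ ^ (S \ W).card
        ≤ ∑ S : Finset X, ∑ A ∈ W.powerset.filter (fun A => A.card ≤ t),
            if A ⊆ S then g S * ρ ^ (S \ A).card else 0 := by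
          refine sum_le_sum fun S _ => ?_
          have hnn : ∀ A ∈ W.powerset.filter (fun A => A.card ≤ t),
              0 ≤ if A ⊆ S then g S * ρ ^ (S \ A).card else 0 := by
            intro A _
            split_ifs
            · exact mul_nonneg (hg S) (by positivity)
            · exact le_refl _
          by_cases h0 : g S = 0
          · rw [h0, zero_mul]
            exact sum_nonneg fun A hA => by
              have := hnn A hA
              rwa [h0] at this
          · have hmem : S ∩ W ∈ W.powerset.filter (fun A => A.card ≤ t) :=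
              mem_filter.2 ⟨mem_powerset.2 inter_subset_right,
                (card_le_card inter_subset_left).trans (ht S h0)⟩
            have := single_le_sum
              (f := fun A => if A ⊆ S then g S * ρ ^ (S \ A).card else 0) hnn hmem
            simp only [inter_subset_left, if_true] at this
            rwa [sdiff_inter_self_left] at this
      _ = _ := by
          rw [sum_comm]
          refine sum_congr rfl fun A _ => ?_
          rw [sum_filter]
  have h2 : ∀ A ∈ W.powerset.filter (fun A => A.card ≤ t),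
      Lam g ρ A ≤ (if A = ∅ then fcost g ρ else 0) + Y := by
    intro A _
    split_ifs with hA
    · rw [hA, Lam_empty]; linarith
    · rw [zero_add]; exact hL A (nonempty_iff_ne_empty.2 hA)
  have h3 : ∑ A ∈ W.powerset.filter (fun A => A.card ≤ t), (if A = ∅ then fcost g ρ else 0) =
      fcost g ρ := by
    rw [sum_ite_eq']
    simp
  calc boost g ρ W ≤ _ := h1
    _ ≤ _ := sum_le_sum h2
    _ = fcost g ρ + ((W.powerset.filter (fun A => A.card ≤ t)).card : ℝ) * Y := by
        rw [sum_add_distrib, h3, sum_const, nsmul_eq_mul]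
    _ ≤ fcost g ρ + (t * r + 1) ^ t * Y := by
        have h4 : ((W.powerset.filter (fun A => A.card ≤ t)).card : ℝ) ≤ (t * r + 1) ^ t := by
          have h5 : (W.powerset.filter (fun A => A.card ≤ t)).card ≤ (t * r + 1) ^ t :=
            (card_small_subsets W t).trans (Nat.pow_le_pow_left (by omega) t)
          exact_mod_cast h5
        have := mul_le_mul_of_nonneg_right h4 hY
        linarith

/-- Lemma II: no seeds. -/
theorem noseed {p : ℝ} (hp : 0 < p) (hp1 : p ≤ 1) (F : Finset X → Prop) {g : Finset X → ℝ}
    (hg : ∀ S, 0 ≤ g S) {t : ℕ} (ht : ∀ S, g S ≠ 0 → S.card ≤ t)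
    (s : ℕ) (hs : ∀ T, F T → T.card ≤ s) (hcov : ∀ T, F T → 1 ≤ ms g T)
    (r : ℕ) (hr : s + 2 * r + 2 ≤ 2 ^ r) {Y : ℝ} (hY : 0 ≤ Y)
    (hL : ∀ A : Finset X, A.Nonempty → Lam g (2 * p) A ≤ Y)
    (hw : fcost g (2 * p) ≤ 1 / 8) (hYr : (t * r + 1) ^ t * Y < 1 / 8) :
    Cov p F ((1 / 2) ^ r) := by
  refine (jump hp hp1 F hg ht s hs hcov r hr).mono ?_ le_rfl
  intro T hT
  refine ⟨hT, fun W _ hW => ?_⟩
  have := boost_le hg ht (ρ := 2 * p) (by positivity) hY hL hW
  linarith

end Vale.Agent.P034
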