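import Vale.Agent.P034.Tal.Base

/-!
# P034: the scales `k(E)` and the chain argument
-/

namespace Vale.Agent.P034

open Finset

theorem kk_spec {θ Λ : ℝ} (hΛ : 0 < Λ) : θ ≤ 2 ^ kk θ Λ * Λ := by
  have hne : {k : ℕ | θ ≤ 2 ^ k * Λ}.Nonempty := by
    obtain ⟨k, hk⟩ := pow_unbounded_of_one_lt (θ / Λ) (by norm_num : (1 : ℝ) < 2)
    exact ⟨k, ((div_lt_iff₀ hΛ).1 hk).le⟩
  exact Nat.sInf_mem hne

theorem kk_le {θ Λ : ℝ} {k : ℕ} (h : θ ≤ 2 ^ k * Λ) : kk θ Λ ≤ k :=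
  Nat.sInf_le h

theorem kk_lt {θ Λ : ℝ} (hθ : 0 ≤ θ) (hΛ : 0 < Λ) (h : 1 ≤ kk θ Λ) :
    2 ^ kk θ Λ * Λ ≤ 2 * θ := by
  have h1 : kk θ Λ - 1 ∉ {k : ℕ | θ ≤ 2 ^ k * Λ} := by
    refine Nat.notMem_of_lt_sInf ?_
    change kk θ Λ - 1 < kk θ Λ
    omega
  have h2 : 2 ^ (kk θ Λ - 1) * Λ < θ := not_le.1 h1
  have h3 : kk θ Λ = kk θ Λ - 1 + 1 := by omega
  rw [h3, pow_succ]
  linarith

variable {X : Type*} [Fintype X] [DecidableEq X]

/-- The chain argument for sets of the second type. -/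
theorem chain {g : Finset X → ℝ} (hg : ∀ S, 0 ≤ g S) {t : ℕ}
    (ht : ∀ S, g S ≠ 0 → S.card = t) {ρ θ : ℝ} (hρ : 0 ≤ ρ) {l k : ℕ} {S : Finset X}
    (hS : 0 < g S) (hk : θ ≤ 2 ^ k * g S)
    (hnot : ¬ ∃ E, Wit g ρ θ t l E S) (A : Finset X) (hA : A ⊆ S) (hA0 : A.Nonempty) :
    Lam g ρ A ≤ g S * (4 ^ t * (l + 8 ^ t + k : ℝ) ^ bb (t - 1)) ^ (t - A.card) := by
  have hSt : S.card = t := ht S hS.ne'
  have hb1 : (1 : ℝ) ≤ (l : ℝ) + 8 ^ t + k := by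
    have h1 : (1 : ℝ) ≤ 8 ^ t := one_le_pow₀ (by norm_num)
    have h2 : (0 : ℝ) ≤ (l : ℝ) := Nat.cast_nonneg l
    have h3 : (0 : ℝ) ≤ (k : ℝ) := Nat.cast_nonneg k
    linarith
  have hq1 : (1 : ℝ) ≤ 4 ^ t * ((l : ℝ) + 8 ^ t + k) ^ bb (t - 1) := by
    have h1 : (1 : ℝ) ≤ 4 ^ t := one_le_pow₀ (by norm_num)
    have h2 : (1 : ℝ) ≤ ((l : ℝ) + 8 ^ t + k) ^ bb (t - 1) := one_le_pow₀ hb1
    nlinarith
  -- induction on `t - A.card`
  suffices H : ∀ n : ℕ, ∀ A : Finset X, A ⊆ S → A.Nonempty → t - A.card = n →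
      Lam g ρ A ≤ g S * (4 ^ t * (l + 8 ^ t + k : ℝ) ^ bb (t - 1)) ^ n from H _ A hA hA0 rfl
  intro n
  induction n using Nat.strong_induction_on with
  | _ n ih =>
    intro A hA hA0 hn
    set q : ℝ := 4 ^ t * (l + 8 ^ t + k : ℝ) ^ bb (t - 1) with hq
    have hqn : (1 : ℝ) ≤ q ^ n := one_le_pow₀ hq1
    by_cases hAS : A = S
    · rw [hAS, Lam_self_unif ht ρ hSt]
      nlinarith
    by_cases hle : Lam g ρ A ≤ g S
    · nlinarith
    have hlt : g S < Lam g ρ A := not_le.1 hle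
    have hss : A ⊂ S := lt_of_le_of_ne hA hAS
    have hkk : kk θ (Lam g ρ A) ≤ k := by
      refine kk_le (hk.trans ?_)
      exact mul_le_mul_of_nonneg_left hlt.le (by positivity)
    have hnw : ¬ Wit g ρ θ t l A S := fun hw => hnot ⟨A, hw⟩
    unfold Wit at hnw
    push Not at hnw
    obtain ⟨D, hD0, hDS, hD⟩ := hnw hA0 hss
    -- cardinality of `A ∪ D`
    have hdisj : Disjoint A D := by
      rw [Finset.disjoint_left]
      intro x hxA hxD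
      exact (mem_sdiff.1 (hDS hxD)).2 hxA
    have hADS : A ∪ D ⊆ S := union_subset hA (hDS.trans sdiff_subset)
    have hcard : (A ∪ D).card = A.card + D.card := card_union_of_disjoint hdisj
    have hD1 : 1 ≤ D.card := hD0.card_pos
    have hADt : (A ∪ D).card ≤ t := hSt ▸ card_le_card hADS
    have hm : t - (A ∪ D).card < n := by omega
    have h1 := ih _ hm (A ∪ D) hADS (hA0.mono subset_union_left) rfl
    have h2 : (4 : ℝ) ^ t * (lE g ρ θ t l A : ℝ) ^ bb (t - 1) ≤ q := by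
      rw [hq]
      refine mul_le_mul_of_nonneg_left (pow_le_pow_left₀ (Nat.cast_nonneg _) ?_ _) (by positivity)
      unfold lE
      push_cast
      have : ((kk θ (Lam g ρ A) : ℕ) : ℝ) ≤ k := by exact_mod_cast hkk
      linarith
    have hL0 : 0 ≤ Lam g ρ (A ∪ D) := Lam_nonneg hg hρ _
    have hq0 : 0 ≤ q := zero_le_one.trans hq1
    calc Lam g ρ A ≤ 4 ^ t * (lE g ρ θ t l A : ℝ) ^ bb (t - 1) * Lam g ρ (A ∪ D) := hD.le
      _ ≤ q * Lam g ρ (A ∪ D) := mul_le_mul_of_nonneg_right h2 hL0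
      _ ≤ q * (g S * q ^ (t - (A ∪ D).card)) := mul_le_mul_of_nonneg_left h1 hq0
      _ = g S * q ^ (t - (A ∪ D).card + 1) := by ring
      _ ≤ g S * q ^ n :=
        mul_le_mul_of_nonneg_left (pow_le_pow_right₀ hq1 (by omega)) hS.le

end Vale.Agent.P034
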