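import Vale.Agent.P034.Tal.Boost

/-!
# P034: one class of the second type
-/

namespace Vale.Agent.P034

open Finset

variable {X : Type*} [Fintype X] [DecidableEq X]

/-- One class of the second type. -/
theorem class_bound {p : ℝ} (hp : 0 < p) (hp1 : p ≤ 1) {t : ℕ} (ht1 : 1 ≤ t)
    {g : Finset X → ℝ} (hg : ∀ S, 0 ≤ g S) {θ : ℝ} (hθ : 0 < θ) (k : ℕ) (hk : 1 ≤ k) {Q : ℝ}
    (hQ : 0 ≤ Q) (Γ : Finset (Finset X)) (hcard : ∀ S ∈ Γ, S.card = t)
    (hlow : ∀ S ∈ Γ, θ ≤ 2 ^ k * g S) (hup : ∀ S ∈ Γ, 2 ^ k * g S ≤ 2 * θ)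
    (hlink : ∀ S ∈ Γ, ∀ A ⊆ S, A.Nonempty → 2 ^ k * Lam g (2 * p) A ≤ 2 * θ * Q)
    (hw : fcost g (2 * p) ≤ θ) (r : ℕ) (hr : 17 * t * 2 ^ k + 2 * r + 2 ≤ 2 ^ r)
    (hr2 : 8 * (t * r + 1) ^ t * Q ≤ 2 ^ (k / 2)) :
    Cov p (fun T => 16 * ((∑ S ∈ Γ, g S * (2 * p) ^ t) + (1 / 2) ^ (k / 2) * θ) <
      ms (fun S => if S ∈ Γ then g S else 0) T) ((1 / 2) ^ r) := by
  classical
  have h2p : 0 ≤ 2 * p := by linarith
  have h2k : (0 : ℝ) < 2 ^ k := by positivity
  set W : ℝ := ∑ S ∈ Γ, g S * (2 * p) ^ t with hW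
  set τ : ℝ := W + (1 / 2) ^ (k / 2) * θ with hτ
  have hW0 : 0 ≤ W := sum_nonneg fun S _ => mul_nonneg (hg S) (pow_nonneg h2p _)
  have hWθ : W ≤ θ := by
    refine le_trans ?_ hw
    calc W = ∑ S ∈ Γ, g S * (2 * p) ^ S.card :=
          sum_congr rfl fun S hS => by rw [hcard S hS]
      _ ≤ fcost g (2 * p) := by
          unfold fcost
          exact sum_le_sum_of_subset_of_nonneg (subset_univ _)
            fun S _ _ => mul_nonneg (hg S) (pow_nonneg h2p _)
  have hhalf : ((1 : ℝ) / 2) ^ (k / 2) ≤ 1 := pow_le_one₀ (by norm_num) (by norm_num)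
  have hhalf0 : (0 : ℝ) < (1 / 2) ^ (k / 2) := by positivity
  have hτ0 : 0 < τ := by rw [hτ]; positivity
  have hτθ : τ ≤ 2 * θ := by rw [hτ]; nlinarith
  -- the number of sets
  set M0 : ℝ := 8 * (τ / θ) * 2 ^ k with hM0
  have hM0pos : 0 < M0 := by rw [hM0]; positivity
  set M : ℕ := ⌊M0⌋₊ + 1 with hM
  have hM1 : M0 < M := by rw [hM]; push_cast; exact Nat.lt_floor_add_one _
  have hM2 : M ≤ 17 * 2 ^ k := by
    have h1 : M0 ≤ 16 * 2 ^ k := by
      rw [hM0]
      have : τ / θ ≤ 2 := by rw [div_le_iff₀ hθ]; exact hτθ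
      nlinarith
    have h2 : ⌊M0⌋₊ ≤ 16 * 2 ^ k := by
      have := Nat.floor_le_floor h1
      refine this.trans ?_
      have : ((16 * 2 ^ k : ℕ) : ℝ) = 16 * 2 ^ k := by push_cast; ring
      rw [← this, Nat.floor_natCast]
    have h3 : 1 ≤ 2 ^ k := Nat.one_le_two_pow
    omega
  have hMpos : (0 : ℝ) < M := hM0pos.trans hM1
  -- the normalised function
  set g' : Finset X → ℝ := fun S => if S ∈ Γ then 1 / (M : ℝ) else 0 with hg'
  have hg'0 : ∀ S, 0 ≤ g' S := fun S => by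
    simp only [hg']
    split_ifs
    · positivity
    · exact le_rfl
  have hg't : ∀ S, g' S ≠ 0 → S.card ≤ t := fun S hS => by
    simp only [hg'] at hS
    split_ifs at hS with h
    · exact (hcard S h).le
    · exact absurd rfl hS
  have hg'le : ∀ S, g' S ≤ 2 ^ k / (θ * M) * g S := fun S => by
    simp only [hg']
    split_ifs with h
    · have := hlow S h
      rw [div_mul_eq_mul_div, div_le_div_iff₀ hMpos (by positivity)]
      nlinarith
    · have := hg S
      positivity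
  -- cost of the normalised function
  have hcost : fcost g' (2 * p) ≤ 1 / 8 := by
    have h1 : fcost g' (2 * p) = ∑ S ∈ Γ, 1 / (M : ℝ) * (2 * p) ^ t := by
      unfold fcost
      rw [← sum_subset (subset_univ Γ)]
      · refine sum_congr rfl fun S hS => ?_
        simp only [hg', if_pos hS, hcard S hS]
      · intro S _ hS
        simp only [hg', if_neg hS, zero_mul]
    rw [h1]
    have h2 : ∑ S ∈ Γ, 1 / (M : ℝ) * (2 * p) ^ t ≤ 2 ^ k / (θ * M) * W := by
      rw [hW, mul_sum]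
      refine sum_le_sum fun S hS => ?_
      have h3 := hg'le S
      simp only [hg', if_pos hS] at h3
      calc 1 / (M : ℝ) * (2 * p) ^ t ≤ 2 ^ k / (θ * M) * g S * (2 * p) ^ t :=
            mul_le_mul_of_nonneg_right h3 (pow_nonneg h2p _)
        _ = _ := by ring
    refine h2.trans ?_
    rw [div_mul_eq_mul_div, div_le_div_iff₀ (by positivity) (by norm_num)]
    have h4 : 2 ^ k * W * 8 ≤ M0 * θ := by
      rw [hM0]
      have : 8 * (τ / θ) * 2 ^ k * θ = 2 ^ k * τ * 8 := by field_simp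
      rw [this]
      have : W ≤ τ := by rw [hτ]; nlinarith
      nlinarith
    nlinarith
  -- links
  set Y : ℝ := Q / (4 * 2 ^ (k / 2)) with hY
  have hY0 : 0 ≤ Y := by rw [hY]; positivity
  have hlinkY : ∀ A : Finset X, A.Nonempty → Lam g' (2 * p) A ≤ Y := by
    intro A hA
    by_cases hex : ∃ S ∈ Γ, A ⊆ S
    · obtain ⟨S, hS, hAS⟩ := hex
      have h1 := hlink S hS A hAS hA
      have h2 : Lam g' (2 * p) A ≤ 2 ^ k / (θ * M) * Lam g (2 * p) A := by
        unfold Lam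
        rw [mul_sum]
        refine sum_le_sum fun T _ => ?_
        rw [← mul_assoc]
        exact mul_le_mul_of_nonneg_right (hg'le T) (pow_nonneg h2p _)
      have h3 : 2 ^ k / (θ * M) * Lam g (2 * p) A ≤ 2 * Q / M := by
        rw [div_mul_eq_mul_div, div_le_div_iff₀ (by positivity) hMpos]
        have h5 := mul_le_mul_of_nonneg_right h1 hMpos.le
        calc 2 ^ k * Lam g (2 * p) A * (M : ℝ) ≤ 2 * θ * Q * M := h5
          _ = 2 * Q * (θ * M) := by ring
      refine (h2.trans h3).trans ?_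
      rw [hY, div_le_div_iff₀ hMpos (by positivity)]
      have h6 : 8 * (2 : ℝ) ^ (k / 2) ≤ M := by
        refine le_trans ?_ hM1.le
        rw [hM0]
        have h7 : (1 / 2 : ℝ) ^ (k / 2) ≤ τ / θ := by
          rw [le_div_iff₀ hθ, hτ]; linarith
        have h8 : (2 : ℝ) ^ (k / 2) ≤ (1 / 2) ^ (k / 2) * 2 ^ k := by
          have h9 : (2 : ℝ) ^ k = 2 ^ (k - k / 2) * 2 ^ (k / 2) := by
            rw [← pow_add]; congr 1; omega
          rw [h9, mul_comm, mul_assoc, ← mul_pow]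
          norm_num
          exact pow_le_pow_right₀ (by norm_num) (by omega)
        have h10 := mul_le_mul_of_nonneg_right h7 h2k.le
        linarith
      nlinarith
    · have h0 : Lam g' (2 * p) A = 0 := by
        unfold Lam
        refine sum_eq_zero fun T hT => ?_
        have h1 := (mem_filter.1 hT).2
        have h2 : T ∉ Γ := fun h => hex ⟨T, h, h1⟩
        simp only [hg', if_neg h2, zero_mul]
      rw [h0]
      exact hY0
  have hYr : ((t : ℝ) * r + 1) ^ t * Y < 1 / 8 := by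
    rw [hY, mul_div_assoc', div_lt_div_iff₀ (by positivity) (by norm_num)]
    have h1 : (0 : ℝ) < 2 ^ (k / 2) := by positivity
    nlinarith
  have key := noseed hp hp1 (fun U : Finset X => U.card ≤ 17 * t * 2 ^ k ∧ 1 ≤ ms g' U) hg'0 hg't
    (17 * t * 2 ^ k) (fun T hT => hT.1) (fun T hT => hT.2) r hr hY0 hlinkY hcost hYr
  refine key.of_subset fun T hT => ?_
  -- many members inside `T`
  have h1 : ms (fun S => if S ∈ Γ then g S else 0) T ≤
      (Γ.filter (fun S => S ⊆ T)).card * (2 * θ / 2 ^ k) := by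
    have h2 : ms (fun S => if S ∈ Γ then g S else 0) T = ∑ S ∈ Γ.filter (fun S => S ⊆ T), g S := by
      unfold ms
      rw [← sum_filter]
      refine sum_congr ?_ fun _ _ => rfl
      ext S
      simp only [mem_filter, mem_powerset]
      tauto
    rw [h2, ← nsmul_eq_mul]
    refine sum_le_card_nsmul _ _ _ fun S hS => ?_
    rw [le_div_iff₀ h2k]
    have := hup S (mem_filter.1 hS).1
    linarith
  have h3 : M ≤ (Γ.filter (fun S => S ⊆ T)).card := by
    rw [hM, Nat.add_one_le_iff]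
    rw [Nat.floor_lt hM0pos.le]
    have h4 : 16 * τ < (Γ.filter (fun S => S ⊆ T)).card * (2 * θ / 2 ^ k) := lt_of_lt_of_le hT h1
    rw [mul_div_assoc', lt_div_iff₀ h2k] at h4
    rw [hM0, show 8 * (τ / θ) * 2 ^ k = 8 * τ * 2 ^ k / θ by ring, div_lt_iff₀ hθ]
    nlinarith
  obtain ⟨Γ', hΓ', hcardΓ'⟩ := exists_subset_card_eq h3
  refine ⟨Γ'.biUnion id, ?_, ?_, ?_⟩
  · intro x hx
    obtain ⟨S, hS, hxS⟩ := mem_biUnion.1 hx
    exact (mem_filter.1 (hΓ' hS)).2 hxS
  · calc (Γ'.biUnion id).card ≤ ∑ S ∈ Γ', (id S).card := card_biUnion_le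
      _ = ∑ S ∈ Γ', t := sum_congr rfl fun S hS => hcard S (mem_filter.1 (hΓ' hS)).1
      _ = M * t := by rw [sum_const, hcardΓ', smul_eq_mul]
      _ ≤ 17 * 2 ^ k * t := Nat.mul_le_mul_right _ hM2
      _ = 17 * t * 2 ^ k := by ring
  · have h5 : ∑ S ∈ Γ', g' S ≤ ms g' (Γ'.biUnion id) := by
      unfold ms
      refine sum_le_sum_of_subset_of_nonneg ?_ fun S _ _ => hg'0 S
      intro S hS
      rw [mem_powerset]
      exact subset_biUnion_of_mem id hS
    have h6 : ∑ S ∈ Γ', g' S = 1 := by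
      calc ∑ S ∈ Γ', g' S = ∑ S ∈ Γ', 1 / (M : ℝ) :=
            sum_congr rfl fun S hS => by simp only [hg', if_pos (mem_filter.1 (hΓ' hS)).1]
        _ = 1 := by
            rw [sum_const, hcardΓ', nsmul_eq_mul]
            field_simp
    linarith

end Vale.Agent.P034
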