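import Vale.Agent.P034.Tal.Base

/-!
# P034: arithmetic of the parameters
-/

namespace Vale.Agent.P034

namespace Nm

theorem mul_succ_le_two_pow {j : ℕ} (hj : 5 ≤ j) : j * (j + 1) ≤ 2 ^ j := by
  induction j, hj using Nat.le_induction with
  | base => norm_num
  | succ j hj ih =>
    have h : (j + 1) * (j + 1 + 1) ≤ 2 * (j * (j + 1)) := by nlinarith
    calc (j + 1) * (j + 1 + 1) ≤ 2 * (j * (j + 1)) := h
      _ ≤ 2 * 2 ^ j := Nat.mul_le_mul_left _ ih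
      _ = 2 ^ (j + 1) := by rw [pow_succ]; ring

theorem pow_le_two_pow {n k : ℕ} (hn : 5 ≤ n) (hk : n ^ 2 ≤ k) : k ^ n ≤ 2 ^ k := by
  have hj : n ≤ k / n := by
    rw [Nat.le_div_iff_mul_le (by omega)]
    nlinarith
  have h1 : k < n * (k / n + 1) := Nat.lt_mul_div_succ k (by omega)
  have h2 : k ≤ 2 ^ (k / n) := by
    calc k ≤ n * (k / n + 1) := h1.le
      _ ≤ k / n * (k / n + 1) := Nat.mul_le_mul_right _ hj
      _ ≤ 2 ^ (k / n) := mul_succ_le_two_pow (hn.trans hj)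
  calc k ^ n ≤ (2 ^ (k / n)) ^ n := Nat.pow_le_pow_left h2 n
    _ = 2 ^ (k / n * n) := by rw [pow_mul]
    _ ≤ 2 ^ k := Nat.pow_le_pow_right (by norm_num) (Nat.div_mul_le_self k n)

theorem succ_le_eight_pow (t : ℕ) : 8 * (t + 1) ≤ 8 ^ (t + 1) := by
  induction t with
  | zero => norm_num
  | succ t ih =>
    rw [pow_succ]
    omega

theorem ell_ge {t l : ℕ} (hl : ell t ≤ l) : 8 * (t + 1) ≤ l :=
  (succ_le_eight_pow t).trans hl

theorem ell_ge' {t l : ℕ} (hl : ell t ≤ l) : 8 * 8 ^ t ≤ l := by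
  have : ell t = 8 * 8 ^ t := by unfold ell; rw [pow_succ]; ring
  omega

theorem four_pow_le {t l : ℕ} (hl : ell t ≤ l) : 8 * 4 ^ t ≤ l := by
  have h := ell_ge' hl
  have : 4 ^ t ≤ 8 ^ t := Nat.pow_le_pow_left (by norm_num) t
  omega

theorem bb_eq {t : ℕ} (ht : 1 ≤ t) : bb t = (32 * t * bb (t - 1)) ^ 2 := by
  obtain ⟨s, rfl⟩ : ∃ s, t = s + 1 := ⟨t - 1, by omega⟩
  simp [bb_succ]

end Nm

open Nm

theorem num_k_ge {t l k : ℕ} (ht : 1 ≤ t) (hl : ell t ≤ l) (hk : l ^ bb t ≤ 2 ^ k) :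
    4 ≤ k := by
  have h1 : 16 ≤ l := by have := ell_ge hl; omega
  have h2 : l ≤ l ^ bb t := Nat.le_self_pow (by have := bb_pos t; omega) l
  by_contra h
  have h3 : 2 ^ k ≤ 2 ^ 3 := Nat.pow_le_pow_right (by norm_num) (by omega)
  omega

/-- Numeric condition for the second type. -/
theorem num_class {t l k : ℕ} (ht : 1 ≤ t) (hl : ell t ≤ l) (hk : l ^ bb t ≤ 2 ^ k) :
    8 * ((t * (l + 2 * k + t + 5) + 1) * (4 ^ t * (l + 8 ^ t + k) ^ bb (t - 1))) ^ t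
      ≤ 2 ^ (k / 2) := by
  have hbt := bb_eq ht
  set b := bb (t - 1) with hb
  have hb1 : 1 ≤ b := bb_pos _
  have hl8 := ell_ge hl
  have hl8' := ell_ge' hl
  have hl4 := four_pow_le hl
  have hk4 := num_k_ge ht hl hk
  set n := 32 * t * b with hn
  have htb : 1 ≤ t * b := Nat.mul_pos ht hb1
  have hn32 : n = 32 * (t * b) := by rw [hn]; ring
  -- the basic inequality
  set m := l + k with hm
  have hm1 : 20 ≤ m := by omega
  have e1 : t * (l + 2 * k + t + 5) + 1 ≤ m ^ 2 := by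
    have h1 : l + 2 * k + t + 5 ≤ 2 * m := by omega
    have h2 : t * (l + 2 * k + t + 5) ≤ t * (2 * m) := Nat.mul_le_mul_left _ h1
    have h3 : 8 * t * m ≤ l * m := Nat.mul_le_mul_right _ (by omega)
    have h4 : l * m ≤ m * m := Nat.mul_le_mul_right _ (by omega)
    have h5 : 1 ≤ t * m := Nat.mul_pos ht (by omega)
    nlinarith
  have e2 : 4 ^ t ≤ m := by omega
  have e3 : l + 8 ^ t + k ≤ m ^ 2 := by
    have h1 : l + 8 ^ t + k ≤ 2 * m := by omega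
    nlinarith
  have e4 : (t * (l + 2 * k + t + 5) + 1) * (4 ^ t * (l + 8 ^ t + k) ^ b) ≤ m ^ (5 * b) := by
    calc (t * (l + 2 * k + t + 5) + 1) * (4 ^ t * (l + 8 ^ t + k) ^ b)
        ≤ m ^ 2 * (m * (m ^ 2) ^ b) :=
          Nat.mul_le_mul e1 (Nat.mul_le_mul e2 (Nat.pow_le_pow_left e3 b))
      _ = m ^ (3 + 2 * b) := by rw [← pow_mul]; ring
      _ ≤ m ^ (5 * b) := Nat.pow_le_pow_right (by omega) (by omega)
  have e5 : 8 * ((t * (l + 2 * k + t + 5) + 1) * (4 ^ t * (l + 8 ^ t + k) ^ b)) ^ t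
      ≤ m ^ (6 * (t * b)) := by
    calc 8 * ((t * (l + 2 * k + t + 5) + 1) * (4 ^ t * (l + 8 ^ t + k) ^ b)) ^ t
        ≤ m * (m ^ (5 * b)) ^ t := Nat.mul_le_mul (by omega) (Nat.pow_le_pow_left e4 t)
      _ = m ^ (1 + 5 * (t * b)) := by rw [← pow_mul]; ring
      _ ≤ m ^ (6 * (t * b)) := Nat.pow_le_pow_right (by omega) (by omega)
  -- the power bound
  have hk2 : n ^ 2 ≤ k := by
    have h1 : 2 ^ (n ^ 2) ≤ 2 ^ k := by
      calc 2 ^ (n ^ 2) ≤ l ^ (n ^ 2) := Nat.pow_le_pow_left (by omega) _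
        _ ≤ 2 ^ k := by rw [← hbt]; exact hk
    exact (Nat.pow_le_pow_iff_right (by norm_num)).1 h1
  have hkn : k ^ n ≤ 2 ^ k := pow_le_two_pow (by omega) hk2
  have hln : l ^ n ≤ 2 ^ k := by
    calc l ^ n ≤ l ^ (n ^ 2) := Nat.pow_le_pow_right (by omega) (by nlinarith)
      _ ≤ 2 ^ k := by rw [← hbt]; exact hk
  have e6 : m ^ (16 * (t * b)) ≤ 2 ^ k := by
    have h1 : m ≤ l * k := by
      have : 4 * l ≤ l * k := by
        calc 4 * l = l * 4 := by ring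
          _ ≤ l * k := Nat.mul_le_mul_left _ hk4
      have : 16 * k ≤ l * k := Nat.mul_le_mul_right _ (by omega)
      omega
    have h2 : (m ^ (16 * (t * b))) ^ 2 ≤ (2 ^ k) ^ 2 := by
      calc (m ^ (16 * (t * b))) ^ 2 = m ^ n := by rw [← pow_mul, hn32]; ring_nf
        _ ≤ (l * k) ^ n := Nat.pow_le_pow_left h1 n
        _ = l ^ n * k ^ n := mul_pow _ _ _
        _ ≤ 2 ^ k * 2 ^ k := Nat.mul_le_mul hln hkn
        _ = (2 ^ k) ^ 2 := by ring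
    exact (Nat.pow_le_pow_iff_left (by norm_num)).1 h2
  -- conclusion
  have e7 : (m ^ (6 * (t * b))) ^ 2 ≤ (2 ^ (k / 2)) ^ 2 := by
    have h1 : 2 * (m ^ (6 * (t * b))) ^ 2 ≤ 2 ^ k := by
      calc 2 * (m ^ (6 * (t * b))) ^ 2 ≤ m * (m ^ (6 * (t * b))) ^ 2 :=
            Nat.mul_le_mul_right _ (by omega)
        _ = m ^ (1 + 12 * (t * b)) := by rw [← pow_mul]; ring
        _ ≤ m ^ (16 * (t * b)) := Nat.pow_le_pow_right (by omega) (by omega)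
        _ ≤ 2 ^ k := e6
    have h2 : 2 ^ k ≤ 2 * (2 ^ (k / 2)) ^ 2 := by
      rw [← pow_mul]
      calc 2 ^ k ≤ 2 ^ (1 + k / 2 * 2) := Nat.pow_le_pow_right (by norm_num) (by omega)
        _ = 2 * 2 ^ (k / 2 * 2) := by rw [pow_add]; ring
    omega
  exact e5.trans ((Nat.pow_le_pow_iff_left (by norm_num)).1 e7)

theorem num_size {t l k : ℕ} (ht : 1 ≤ t) (hl : ell t ≤ l) :
    17 * t * 2 ^ k + 2 * (l + 2 * k + t + 5) + 2 ≤ 2 ^ (l + 2 * k + t + 5) := by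
  have h1 : k < 2 ^ k := Nat.lt_two_pow_self
  have h2 : l < 2 ^ l := Nat.lt_two_pow_self
  have h3 : t < 2 ^ t := Nat.lt_two_pow_self
  have h4 : 1 ≤ 2 ^ k := Nat.one_le_two_pow
  have e : 2 ^ (l + 2 * k + t + 5) = 32 * (2 ^ l * 2 ^ t) * (2 ^ k * 2 ^ k) := by
    rw [show l + 2 * k + t + 5 = l + t + (k + k) + 5 by ring, pow_add, pow_add, pow_add, pow_add]
    ring
  rw [e]
  have h5 : (l + 1) * (t + 1) ≤ 2 ^ l * 2 ^ t := Nat.mul_le_mul h2 h3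
  have h6 : l + t + 1 ≤ 2 ^ l * 2 ^ t := by nlinarith
  set A := 2 ^ l * 2 ^ t with hA
  set K := 2 ^ k with hK
  have h7 : K ≤ K * K := Nat.le_mul_of_pos_left _ h4
  have h8 : 17 * t * K ≤ 17 * t * (K * K) := Nat.mul_le_mul_left _ h7
  have h9 : 32 * (l + t + 1) * (K * K) ≤ 32 * A * (K * K) :=
    Nat.mul_le_mul_right _ (Nat.mul_le_mul_left _ h6)
  have h10 : l ≤ l * (K * K) := Nat.le_mul_of_pos_right _ (Nat.mul_pos h4 h4)
  have h11 : t ≤ t * (K * K) := Nat.le_mul_of_pos_right _ (Nat.mul_pos h4 h4)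
  have h12 : 1 ≤ K * K := Nat.mul_pos h4 h4
  have h13 : 32 * (l + t + 1) * (K * K) = 32 * (l * (K * K)) + 32 * (t * (K * K)) + 32 * (K * K) := by
    ring
  have h14 : 17 * t * (K * K) = 17 * (t * (K * K)) := by ring
  omega

theorem num_rec {t l : ℕ} (ht : 1 ≤ t) (hl : ell t ≤ l) :
    2 * 4 ^ t * (l + t + 3) ^ bb (t - 1) ≤ l ^ bb t := by
  have hbt := bb_eq ht
  set b := bb (t - 1) with hb
  have hb1 : 1 ≤ b := bb_pos _
  have hl8 := ell_ge hl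
  have hl4 := four_pow_le hl
  have h1 : l + t + 3 ≤ l ^ 2 := by nlinarith
  have h2 : 2 * b + 1 ≤ bb t := by
    rw [hbt]
    have h3 : b ≤ t * b := Nat.le_mul_of_pos_left _ ht
    have h4 : 32 * t * b = 32 * (t * b) := by ring
    rw [h4]
    nlinarith
  calc 2 * 4 ^ t * (l + t + 3) ^ b ≤ l * (l ^ 2) ^ b :=
        Nat.mul_le_mul (by omega) (Nat.pow_le_pow_left h1 b)
    _ = l ^ (2 * b + 1) := by rw [← pow_mul]; ring
    _ ≤ l ^ bb t := Nat.pow_le_pow_right (by omega) h2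

theorem bb_le_pow_aux (t : ℕ) : 2 ^ (2 * t + 12) * bb t ≤ 2 ^ (14 * 2 ^ t) := by
  induction t with
  | zero => norm_num [bb_zero]
  | succ t ih =>
    have h1 : t + 1 ≤ 2 ^ t := Nat.lt_two_pow_self
    have h2 : (t + 1) ^ 2 ≤ (2 ^ t) ^ 2 := Nat.pow_le_pow_left h1 2
    calc 2 ^ (2 * (t + 1) + 12) * bb (t + 1)
        = 2 ^ (2 * (t + 1) + 12) * (2 ^ 10 * (t + 1) ^ 2 * bb t ^ 2) := by
          rw [bb_succ]; ring
      _ ≤ 2 ^ (2 * (t + 1) + 12) * (2 ^ 10 * (2 ^ t) ^ 2 * bb t ^ 2) :=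
          Nat.mul_le_mul_left _ (Nat.mul_le_mul_right _ (Nat.mul_le_mul_left _ h2))
      _ = (2 ^ (2 * t + 12) * bb t) ^ 2 := by
          rw [mul_pow, ← pow_mul, ← pow_mul]
          rw [show 2 ^ (2 * (t + 1) + 12) * (2 ^ 10 * 2 ^ (t * 2) * bb t ^ 2)
            = (2 ^ (2 * (t + 1) + 12) * (2 ^ 10 * 2 ^ (t * 2))) * bb t ^ 2 by ring]
          rw [← pow_add, ← pow_add]
          congr 2
          ring
      _ ≤ (2 ^ (14 * 2 ^ t)) ^ 2 := Nat.pow_le_pow_left ih 2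
      _ = 2 ^ (14 * 2 ^ (t + 1)) := by rw [← pow_mul, pow_succ]; ring_nf

theorem bb_le_pow (t : ℕ) : bb t ≤ 2 ^ (14 * 2 ^ t) :=
  (Nat.le_mul_of_pos_left _ (by positivity)).trans (bb_le_pow_aux t)

end Vale.Agent.P034
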