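import Vale.Agent.P034.Tal.Jump
import Vale.Agent.P034.Tal.Num

/-!
# P034: the sets of large weight
-/

namespace Vale.Agent.P034

open Finset

variable {X : Type*} [Fintype X] [DecidableEq X]

omit [Fintype X] in
/-- A few members of large weight suffice. -/
theorem few_members {g : Finset X → ℝ} (hg : ∀ S, 0 ≤ g S) {t : ℕ}
    (ht : ∀ S, g S ≠ 0 → S.card ≤ t) {a : ℝ} (hbig : ∀ S, g S ≠ 0 → a ≤ g S) (M : ℕ)
    {T : Finset X} (hT : M * a ≤ ms g T) :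
    ∃ U ⊆ T, U.card ≤ t * M ∧ M * a ≤ ms g U := by
  classical
  set 𝒮 := T.powerset.filter (fun S => g S ≠ 0) with h𝒮
  have hms : ms g T = ∑ S ∈ 𝒮, g S := by
    unfold ms
    rw [h𝒮, sum_filter_ne_zero]
  -- for a subfamily of `𝒮`
  have key : ∀ 𝒮' ⊆ 𝒮, 𝒮'.card ≤ M → 𝒮'.biUnion id ⊆ T ∧ (𝒮'.biUnion id).card ≤ t * M ∧
      ∑ S ∈ 𝒮', g S ≤ ms g (𝒮'.biUnion id) := by
    intro 𝒮' hsub hcard
    refine ⟨?_, ?_, ?_⟩
    · refine biUnion_subset.2 fun S hS => ?_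
      exact mem_powerset.1 (mem_filter.1 (hsub hS)).1
    · calc (𝒮'.biUnion id).card ≤ 𝒮'.card * t :=
            card_biUnion_le_card_mul _ _ _ fun S hS => ht S (mem_filter.1 (hsub hS)).2
        _ ≤ t * M := by rw [mul_comm]; exact Nat.mul_le_mul_left _ hcard
    · unfold ms
      refine sum_le_sum_of_subset_of_nonneg ?_ fun S _ _ => hg S
      intro S hS
      exact mem_powerset.2 (subset_biUnion_of_mem id hS)
  by_cases hM : 𝒮.card ≤ M
  · obtain ⟨h1, h2, h3⟩ := key 𝒮 (Subset.refl _) hM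
    exact ⟨_, h1, h2, hT.trans (hms.trans_le h3)⟩
  · obtain ⟨𝒮', hsub, hcard⟩ := exists_subset_card_eq (not_le.1 hM).le
    obtain ⟨h1, h2, h3⟩ := key 𝒮' hsub hcard.le
    refine ⟨_, h1, h2, le_trans ?_ h3⟩
    calc (M : ℝ) * a = ∑ _S ∈ 𝒮', a := by rw [sum_const, hcard, nsmul_eq_mul]
      _ ≤ ∑ S ∈ 𝒮', g S := sum_le_sum fun S hS => hbig S (mem_filter.1 (hsub hS)).2


theorem two_mul_add_two_le (n : ℕ) (hn : 6 ≤ n) : 2 * n + 2 ≤ 2 ^ (n - 1) := by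
  induction n, hn using Nat.le_induction with
  | base => norm_num
  | succ n hn ih =>
    obtain ⟨m, rfl⟩ : ∃ m, n = m + 1 := ⟨n - 1, by omega⟩
    simp only [Nat.add_sub_cancel] at ih ⊢
    rw [pow_succ]
    omega

theorem cz_num1 {t : ℕ} (ht : 1 ≤ t) :
    t * (2 ^ (30 * t - 3) * ell t ^ bb t) + 2 * (31 * t + 3 * (t + 1) * bb t + 5) + 2 ≤
      2 ^ (31 * t + 3 * (t + 1) * bb t + 5) := by
  set r := 31 * t + 3 * (t + 1) * bb t + 5 with hr
  have h1 : t * (2 ^ (30 * t - 3) * ell t ^ bb t) ≤ 2 ^ (r - 1) := by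
    have e1 : ell t ^ bb t = 2 ^ (3 * (t + 1) * bb t) := by
      unfold ell
      rw [show (8 : ℕ) = 2 ^ 3 by norm_num, ← pow_mul, ← pow_mul, mul_assoc]
    rw [e1]
    calc t * (2 ^ (30 * t - 3) * 2 ^ (3 * (t + 1) * bb t))
        ≤ 2 ^ t * (2 ^ (30 * t - 3) * 2 ^ (3 * (t + 1) * bb t)) :=
          Nat.mul_le_mul_right _ Nat.lt_two_pow_self.le
      _ = 2 ^ (t + (30 * t - 3) + 3 * (t + 1) * bb t) := by ring
      _ ≤ 2 ^ (r - 1) := Nat.pow_le_pow_right (by norm_num) (by omega)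
  have h2 := two_mul_add_two_le r (by omega)
  have h3 : 2 ^ r = 2 ^ (r - 1) + 2 ^ (r - 1) := by
    obtain ⟨m, hm⟩ : ∃ m, r = m + 1 := ⟨r - 1, by omega⟩
    rw [hm, Nat.add_sub_cancel, pow_succ]; ring
  omega

theorem cz_num2 {t : ℕ} (ht : 1 ≤ t) :
    t * (31 * t + 3 * (t + 1) * bb t + 5) + 2 * 2 ^ (t + 6) + 2 ≤ 2 ^ 2 ^ (t + 6) := by
  set r := 2 ^ (t + 6) with hr
  have hr6 : 6 ≤ r := by
    calc 6 ≤ 2 ^ (1 + 6) := by norm_num
      _ ≤ r := Nat.pow_le_pow_right (by norm_num) (by omega)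
  have hb := bb_le_pow t
  have hb1 := bb_pos t
  have h1 : t * (31 * t + 3 * (t + 1) * bb t + 5) ≤ 2 ^ (r - 1) := by
    calc t * (31 * t + 3 * (t + 1) * bb t + 5)
        ≤ t * (64 * t * bb t) := by
          refine Nat.mul_le_mul_left _ ?_
          nlinarith
      _ ≤ 2 ^ t * (64 * 2 ^ t * 2 ^ (14 * 2 ^ t)) := by
          have := (Nat.lt_two_pow_self (n := t)).le
          gcongr
      _ = 2 ^ (6 + 2 * t + 14 * 2 ^ t) := by
          rw [show (64 : ℕ) = 2 ^ 6 by norm_num]; ring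
      _ ≤ 2 ^ (r - 1) := by
          refine Nat.pow_le_pow_right (by norm_num) ?_
          have h2 := (Nat.lt_two_pow_self (n := t))
          rw [hr, pow_add]
          omega
  have h2 := two_mul_add_two_le r hr6
  have h3 : 2 ^ r = 2 ^ (r - 1) + 2 ^ (r - 1) := by
    obtain ⟨m, hm⟩ : ∃ m, r = m + 1 := ⟨r - 1, by omega⟩
    rw [hm, Nat.add_sub_cancel, pow_succ]; ring
  omega

theorem exp_neg_le_half_pow (n : ℕ) : Real.exp (-(n : ℝ)) ≤ (1 / 2) ^ n := by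
  have h1 : Real.exp (-1) ≤ 1 / 2 := by
    rw [Real.exp_neg, one_div]
    refine inv_anti₀ (by norm_num) ?_
    have := Real.add_one_le_exp (1 : ℝ)
    linarith
  calc Real.exp (-(n : ℝ)) = Real.exp (-1) ^ n := by
        rw [← Real.exp_nat_mul]; congr 1; ring
    _ ≤ (1 / 2) ^ n := pow_le_pow_left₀ (Real.exp_pos _).le h1 n

theorem half_pow_mul_two_pow (a b : ℕ) : ((1 : ℝ) / 2) ^ (a + b) * 2 ^ a = (1 / 2) ^ b := by
  rw [pow_add, mul_assoc, mul_comm _ ((2 : ℝ) ^ a), ← mul_assoc, ← mul_pow]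
  norm_num

theorem cz_num3 {t : ℕ} (ht : 1 ≤ t) :
    (((t * 2 ^ (t + 6) + (t + 10) : ℕ) : ℝ) + 1) * (16 * 3 ^ t * (8 / CC ^ t)) ≤
      (1 / 2) ^ (t + 10) := by
  have h1 : (((t * 2 ^ (t + 6) + (t + 10) : ℕ) : ℝ) + 1) ≤ 2 ^ (2 * t + 7) := by
    have : (t * 2 ^ (t + 6) + (t + 10) : ℕ) + 1 ≤ 2 ^ (2 * t + 7) := by
      have h2 := (Nat.lt_two_pow_self (n := t))
      have h3 : t * 2 ^ (t + 6) ≤ 2 ^ t * 2 ^ (t + 6) := Nat.mul_le_mul_right _ h2.le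
      have h4 : 2 ^ t * 2 ^ (t + 6) = 2 ^ (2 * t + 6) := by ring
      have h5 : 2 ^ (2 * t + 7) = 2 ^ (2 * t + 6) + 2 ^ (2 * t + 6) := by ring
      have h6 : 2 ^ (2 * t + 6) = 2 ^ t * (2 ^ t * 64) := by ring
      have h7 : 2 ≤ 2 ^ t := by
        calc 2 = 2 ^ 1 := by norm_num
          _ ≤ 2 ^ t := Nat.pow_le_pow_right (by norm_num) ht
      have h8 : t + 11 ≤ 2 ^ t * (2 ^ t * 64) := by nlinarith
      omega
    exact_mod_cast this
  have h2 : (3 : ℝ) ^ t ≤ 2 ^ (2 * t) := by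
    rw [pow_mul]
    exact pow_le_pow_left₀ (by norm_num) (by norm_num) t
  have hC : CC ^ t = 2 ^ (30 * t) := by unfold CC; rw [← pow_mul]
  rw [hC]
  calc (((t * 2 ^ (t + 6) + (t + 10) : ℕ) : ℝ) + 1) * (16 * 3 ^ t * (8 / 2 ^ (30 * t)))
      ≤ 2 ^ (2 * t + 7) * (16 * 2 ^ (2 * t) * (8 / 2 ^ (30 * t))) := by gcongr
    _ ≤ (1 / 2) ^ (t + 10) := by
      have e1 : (2 : ℝ) ^ (2 * t + 7) * (16 * 2 ^ (2 * t) * (8 / 2 ^ (30 * t))) =
          2 ^ (4 * t + 14) / 2 ^ (30 * t) := by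
        rw [show (16 : ℝ) = 2 ^ 4 by norm_num, show (8 : ℝ) = 2 ^ 3 by norm_num]
        ring
      rw [e1, div_pow, one_pow, div_le_div_iff₀ (by positivity) (by positivity), one_mul, ← pow_add]
      exact pow_le_pow_right₀ (by norm_num) (by omega)

theorem class_zero {p : ℝ} (hp : 0 < p) (hp1 : 2 * p ≤ 1) {t : ℕ} (ht1 : 1 ≤ t)
    {g : Finset X → ℝ} (hg : ∀ S, 0 ≤ g S) (ht : ∀ S, g S ≠ 0 → S.card = t)
    {θ : ℝ} (hθ : 0 < θ) (hw : fcost g (2 * p) ≤ θ)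
    (hbig : ∀ S, g S ≠ 0 → θ < (ell t : ℝ) ^ (bb t) * g S) :
    Cov p (fun T => CC ^ t / 8 * θ < ms g T) ((1 / 2) ^ (t + 5)) := by
  have hp1' : p ≤ 1 := by linarith
  have hCt : (0 : ℝ) < CC ^ t := pow_pos CC_pos t
  set K := CC ^ t / 8 * θ with hK
  have hKpos : 0 < K := by positivity
  set N : ℝ := (ell t : ℝ) ^ (bb t) with hN
  have hNpos : 0 < N := by
    have : 0 < ell t := by unfold ell; positivity
    positivity
  set M : ℕ := 2 ^ (30 * t - 3) * ell t ^ bb t with hM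
  have hMK : (M : ℝ) * (θ / N) = K := by
    have h1 : CC ^ t / 8 = 2 ^ (30 * t - 3) := by
      unfold CC
      rw [← pow_mul, div_eq_iff (by norm_num), show (8 : ℝ) = 2 ^ 3 by norm_num, ← pow_add]
      congr 1; omega
    have h2 : (M : ℝ) = 2 ^ (30 * t - 3) * N := by rw [hM, hN]; push_cast; ring
    rw [hK, h1, h2]
    field_simp
  -- the normalised function
  set gt : Finset X → ℝ := fun S => K⁻¹ * g S with hgt
  have hgt0 : ∀ S, 0 ≤ gt S := fun S => mul_nonneg (inv_nonneg.2 hKpos.le) (hg S)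
  have hgtt : ∀ S, gt S ≠ 0 → S.card = t := fun S hS => ht S (right_ne_zero_of_mul hS)
  have hgtt' : ∀ S, gt S ≠ 0 → S.card ≤ t := fun S hS => (hgtt S hS).le
  have hms : ∀ T, ms gt T = K⁻¹ * ms g T := fun T => ms_mul _ _ _
  have hf : ∀ c : ℝ, fcost gt (c * (2 * p)) = K⁻¹ * (c ^ t * fcost g (2 * p)) := by
    intro c
    rw [hgt, fcost_mul, fcost_unif ht, fcost_unif ht]
    simp only [mul_sum]
    refine sum_congr rfl fun S _ => ?_
    rw [mul_pow]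
    ring
  -- pass to small sets
  set s₀ := t * M with hs₀
  set r₁ := 31 * t + 3 * (t + 1) * bb t + 5 with hr₁
  set r₂ := 2 ^ (t + 6) with hr₂
  refine Cov.of_subset (F := fun U => U.card ≤ s₀ ∧ 1 ≤ ms gt U) ?_ ?_
  swap
  · intro T hT
    obtain ⟨U, hU, hUc, hUm⟩ := few_members hg (fun S hS => (ht S hS).le)
      (a := θ / N) (fun S hS => by
        rw [div_le_iff₀ hNpos, mul_comm]
        exact (hbig S hS).le) M (T := T) (by rw [hMK]; exact hT.le)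
    refine ⟨U, hU, hUc, ?_⟩
    rw [hms, ← inv_mul_cancel₀ hKpos.ne']
    exact mul_le_mul_of_nonneg_left (hMK ▸ hUm) (inv_nonneg.2 hKpos.le)
  -- the two jumps
  set g₁ := seedCover gt (2 * p) (1 / 4) with hg₁
  set g₂ := seedCover g₁ (2 * p) (1 / 4) with hg₂
  have hg₁0 : ∀ S, 0 ≤ g₁ S := seedCover_nonneg hgt0 (by positivity) (by norm_num)
  have hg₂0 : ∀ S, 0 ≤ g₂ S := seedCover_nonneg hg₁0 (by positivity) (by norm_num)
  have hg₁t : ∀ S, g₁ S ≠ 0 → S.card ≤ t := seedCover_support hgtt' _ _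
  have hcost : fcost g₂ (2 * p) ≤ 16 * 3 ^ t * (8 / CC ^ t) := by
    have e : fcost g₂ (2 * p) = 16 * (K⁻¹ * (3 ^ t * fcost g (2 * p))) := by
      rw [hg₂, seedCover_fcost, hg₁, seedCover_fcost, ← hf]
      rw [show 2 * p + (2 * p + 2 * p) = 3 * (2 * p) by ring]
      ring
    rw [e]
    calc 16 * (K⁻¹ * (3 ^ t * fcost g (2 * p))) ≤ 16 * (K⁻¹ * (3 ^ t * θ)) := by
          have := inv_nonneg.2 hKpos.le
          gcongr
      _ = 16 * 3 ^ t * (8 / CC ^ t) := by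
          rw [hK]
          field_simp
  have hmain : Cov p (fun U => U.card ≤ s₀ ∧ 1 ≤ ms gt U)
      ((((t * r₂ + (t + 10) : ℕ) : ℝ) + 1) * fcost g₂ (2 * p) +
        Real.exp (-((t * r₂ + (t + 10) : ℕ) : ℝ)) * 2 ^ (t * r₂) + (1 / 2) ^ r₂ + (1 / 2) ^ r₁) := by
    refine jump_seeds hp hp1' _ hgt0 hgtt' s₀ (fun U hU => hU.1) (fun U hU => hU.2) r₁
      (cz_num1 ht1) ?_
    refine jump_seeds hp hp1' _ hg₁0 hg₁t (t * r₁) (fun U hU => hU.1) (fun U hU => hU.2) r₂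
      (cz_num2 ht1) ?_
    exact master hp hp1' _ g₂ hg₂0 (t * r₂) (fun U hU => hU.1) (fun U hU => hU.2) _
      (Nat.cast_nonneg _)
  refine hmain.mono (fun U hU => hU) ?_
  have h1 : (((t * r₂ + (t + 10) : ℕ) : ℝ) + 1) * fcost g₂ (2 * p) ≤ (1 / 2) ^ (t + 10) :=
    (mul_le_mul_of_nonneg_left hcost (by positivity)).trans (cz_num3 ht1)
  have h2 : Real.exp (-((t * r₂ + (t + 10) : ℕ) : ℝ)) * 2 ^ (t * r₂) ≤ (1 / 2) ^ (t + 10) := by
    rw [← half_pow_mul_two_pow (t * r₂) (t + 10)]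
    exact mul_le_mul_of_nonneg_right (exp_neg_le_half_pow _) (by positivity)
  have h3 : ((1 : ℝ) / 2) ^ r₂ ≤ (1 / 2) ^ (t + 10) := by
    refine pow_le_pow_of_le_one (by norm_num) (by norm_num) ?_
    have h2 := (Nat.lt_two_pow_self (n := t))
    rw [hr₂, pow_add]
    omega
  have h4 : ((1 : ℝ) / 2) ^ r₁ ≤ (1 / 2) ^ (t + 10) := by
    refine pow_le_pow_of_le_one (by norm_num) (by norm_num) ?_
    omega
  have h5 : ((1 : ℝ) / 2) ^ (t + 10) * 4 ≤ (1 / 2) ^ (t + 5) := by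
    have : ((1 : ℝ) / 2) ^ (t + 10) = (1 / 2) ^ (t + 5) * (1 / 32) := by
      rw [show t + 10 = (t + 5) + 5 by ring, pow_add]; norm_num
    have h6 : (0 : ℝ) ≤ (1 / 2) ^ (t + 5) := by positivity
    linarith
  linarith

end Vale.Agent.P034
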