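import Vale.Agent.P034.Tal.Base

/-!
# P034: the contracted functions `G_e`
-/

namespace Vale.Agent.P034

open Finset

variable {X : Type*} [Fintype X] [DecidableEq X]

theorem GI_nonneg {g : Finset X → ℝ} (hg : ∀ S, 0 ≤ g S) {ρ : ℝ} (hρ : 0 ≤ ρ) (t : ℕ)
    (I : Finset (Finset X)) (E : Finset X → Finset X) (e : ℕ) (F : Finset X) :
    0 ≤ GI g ρ t I E e F := by
  unfold GI
  split_ifs
  · refine add_nonneg (sum_nonneg fun S _ => mul_nonneg (hg S) (pow_nonneg hρ _)) ?_
    exact mul_nonneg (by positivity) (Lam_nonneg hg hρ F)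
  · exact le_rfl

theorem GI_unif (g : Finset X → ℝ) (ρ : ℝ) (t : ℕ)
    (I : Finset (Finset X)) (E : Finset X → Finset X) (e : ℕ) (F : Finset X)
    (h : GI g ρ t I E e F ≠ 0) : F.card = e := by
  by_contra hne
  exact h (by unfold GI; rw [if_neg hne])

theorem fcost_GI {g : Finset X → ℝ} {t : ℕ}
    (ht : ∀ S, g S ≠ 0 → S.card = t) (ρ : ℝ) (I : Finset (Finset X)) (E : Finset X → Finset X)
    {e : ℕ} (he : e ≤ t) :
    fcost (GI g ρ t I E e) ρ = (∑ S ∈ I.filter (fun S => (E S).card = e), g S * ρ ^ t) +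
      (1 / 4) ^ t * (t.choose e) * fcost g ρ := by
  have hρe : ρ ^ (t - e) * ρ ^ e = ρ ^ t := by rw [← pow_add]; congr 1; omega
  have h0 : fcost (GI g ρ t I E e) ρ =
      ∑ F ∈ univ.filter (fun F : Finset X => F.card = e),
        ((∑ S ∈ I.filter (fun S => E S = F), g S * ρ ^ t) +
          (1 / 4) ^ t * (Lam g ρ F * ρ ^ e)) := by
    unfold fcost
    rw [sum_filter]
    refine sum_congr rfl fun F _ => ?_
    unfold GI
    split_ifs with hF
    · rw [hF, add_mul, sum_mul]
      congr 1
      · refine sum_congr rfl fun S _ => ?_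
        rw [mul_assoc, hρe]
      · ring
    · rw [zero_mul]
  rw [h0, sum_add_distrib, ← mul_sum]
  congr 1
  · -- fibres of `E`
    have hmaps : ∀ S ∈ I.filter (fun S => (E S).card = e),
        E S ∈ univ.filter (fun F : Finset X => F.card = e) := fun S hS =>
      mem_filter.2 ⟨mem_univ _, (mem_filter.1 hS).2⟩
    rw [← sum_fiberwise_of_maps_to hmaps]
    refine sum_congr rfl fun F hF => ?_
    refine sum_congr ?_ fun _ _ => rfl
    ext S
    simp only [mem_filter]
    constructor
    · rintro ⟨hS, hE⟩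
      exact ⟨⟨hS, by rw [hE]; exact (mem_filter.1 hF).2⟩, hE⟩
    · rintro ⟨⟨hS, _⟩, hE⟩
      exact ⟨hS, hE⟩
  · -- double counting
    rw [mul_assoc]
    congr 1
    have h1 : ∑ F ∈ univ.filter (fun F : Finset X => F.card = e), Lam g ρ F * ρ ^ e =
        ∑ F ∈ univ.filter (fun F : Finset X => F.card = e),
          ∑ S : Finset X, if F ⊆ S then g S * ρ ^ S.card else 0 := by
      refine sum_congr rfl fun F hF => ?_
      have hFe : F.card = e := (mem_filter.1 hF).2
      unfold Lam
      rw [sum_mul, sum_filter]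
      refine sum_congr rfl fun S _ => ?_
      split_ifs with hFS
      · by_cases hgS : g S = 0
        · rw [hgS]; simp
        · rw [card_sdiff_of_subset hFS, ht S hgS, hFe, mul_assoc, hρe]
      · rfl
    rw [h1, sum_comm]
    unfold fcost
    rw [mul_sum]
    refine sum_congr rfl fun S _ => ?_
    by_cases hgS : g S = 0
    · rw [hgS]; simp
    rw [← sum_filter, sum_const, nsmul_eq_mul]
    congr 1
    have h2 : (univ.filter (fun F : Finset X => F.card = e)).filter (fun F => F ⊆ S) =
        S.powersetCard e := by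
      ext F
      simp only [mem_filter, mem_univ, true_and, mem_powersetCard]
      exact and_comm
    rw [h2, card_powersetCard, ht S hgS]

theorem Lam_GI_le {g : Finset X → ℝ} (hg : ∀ S, 0 ≤ g S) {t : ℕ}
    (ht : ∀ S, g S ≠ 0 → S.card = t) {ρ : ℝ} (hρ : 0 ≤ ρ) (I : Finset (Finset X))
    (E : Finset X → Finset X) (hE : ∀ S ∈ I, E S ⊆ S) {e : ℕ} (he : e ≤ t) (A : Finset X) :
    Lam (GI g ρ t I E e) ρ A ≤ 2 * Lam g ρ A := by
  have key : Lam (GI g ρ t I E e) ρ A =
      ∑ F ∈ univ.filter (fun F : Finset X => A ⊆ F ∧ F.card = e),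
        ((∑ S ∈ I.filter (fun S => E S = F), g S * ρ ^ (t - A.card)) +
          (1 / 4) ^ t * (Lam g ρ F * ρ ^ (e - A.card))) := by
    unfold Lam
    rw [← filter_filter, sum_filter (s := univ.filter (fun F : Finset X => A ⊆ F))]
    refine sum_congr rfl fun F hF => ?_
    have hAF : A ⊆ F := (mem_filter.1 hF).2
    unfold GI
    split_ifs with hFe
    · have hle : A.card ≤ e := hFe ▸ card_le_card hAF
      rw [card_sdiff_of_subset hAF, hFe, add_mul, sum_mul]
      congr 1
      · refine sum_congr rfl fun S _ => ?_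
        rw [mul_assoc, ← pow_add]
        congr 2
        omega
      · unfold Lam
        ring
    · rw [zero_mul]
  rw [key, sum_add_distrib, ← mul_sum, two_mul]
  refine add_le_add ?_ ?_
  · -- first part
    have hmaps : ∀ S ∈ I.filter (fun S => A ⊆ E S ∧ (E S).card = e),
        E S ∈ univ.filter (fun F : Finset X => A ⊆ F ∧ F.card = e) := fun S hS =>
      mem_filter.2 ⟨mem_univ _, (mem_filter.1 hS).2⟩
    have h1 : ∑ F ∈ univ.filter (fun F : Finset X => A ⊆ F ∧ F.card = e),
        ∑ S ∈ I.filter (fun S => E S = F), g S * ρ ^ (t - A.card) =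
        ∑ S ∈ I.filter (fun S => A ⊆ E S ∧ (E S).card = e), g S * ρ ^ (t - A.card) := by
      rw [← sum_fiberwise_of_maps_to hmaps]
      refine sum_congr rfl fun F hF => ?_
      refine sum_congr ?_ fun _ _ => rfl
      ext S
      simp only [mem_filter]
      constructor
      · rintro ⟨hS, hES⟩
        exact ⟨⟨hS, by rw [hES]; exact (mem_filter.1 hF).2⟩, hES⟩
      · rintro ⟨⟨hS, _⟩, hES⟩
        exact ⟨hS, hES⟩
    rw [h1, Lam_unif ht]
    refine sum_le_sum_of_subset_of_nonneg (fun S hS => ?_) fun S _ _ =>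
      mul_nonneg (hg S) (pow_nonneg hρ _)
    have hS' := mem_filter.1 hS
    exact mem_filter.2 ⟨mem_univ _, hS'.2.1.trans (hE S hS'.1)⟩
  · -- second part
    have h1 : ∑ F ∈ univ.filter (fun F : Finset X => A ⊆ F ∧ F.card = e),
        Lam g ρ F * ρ ^ (e - A.card) ≤
        ∑ F ∈ univ.filter (fun F : Finset X => A ⊆ F ∧ F.card = e),
          ∑ S ∈ univ.filter (fun S : Finset X => A ⊆ S),
            if F ⊆ S then g S * ρ ^ (S \ A).card else 0 := by
      refine sum_le_sum fun F hF => ?_
      obtain ⟨hAF, hFe⟩ := (mem_filter.1 hF).2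
      have hle : A.card ≤ e := hFe ▸ card_le_card hAF
      unfold Lam
      rw [sum_mul, sum_filter, sum_filter]
      refine sum_le_sum fun S _ => ?_
      split_ifs with hFS hAS hAS
      · by_cases hgS : g S = 0
        · rw [hgS]; simp
        · rw [card_sdiff_of_subset hFS, card_sdiff_of_subset hAS, ht S hgS, hFe, mul_assoc,
            ← pow_add]
          refine le_of_eq ?_
          congr 2
          omega
      · exact absurd (hAF.trans hFS) hAS
      · exact le_rfl
      · exact le_rfl
    have h2 : ∑ F ∈ univ.filter (fun F : Finset X => A ⊆ F ∧ F.card = e),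
          ∑ S ∈ univ.filter (fun S : Finset X => A ⊆ S),
            (if F ⊆ S then g S * ρ ^ (S \ A).card else 0) ≤ 2 ^ t * Lam g ρ A := by
      rw [sum_comm]
      unfold Lam
      rw [mul_sum]
      refine sum_le_sum fun S hS => ?_
      by_cases hgS : g S = 0
      · rw [hgS]; simp
      rw [← sum_filter, sum_const, nsmul_eq_mul]
      refine mul_le_mul_of_nonneg_right ?_ (mul_nonneg (hg S) (pow_nonneg hρ _))
      have h3 : ((univ.filter (fun F : Finset X => A ⊆ F ∧ F.card = e)).filter
          (fun F => F ⊆ S)).card ≤ 2 ^ t := by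
        rw [← ht S hgS, ← card_powerset]
        exact card_le_card fun F hF => mem_powerset.2 (mem_filter.1 hF).2
      exact_mod_cast h3
    have hL0 : 0 ≤ Lam g ρ A := Lam_nonneg hg hρ A
    calc (1 / 4 : ℝ) ^ t * ∑ F ∈ univ.filter (fun F : Finset X => A ⊆ F ∧ F.card = e),
          Lam g ρ F * ρ ^ (e - A.card)
        ≤ (1 / 4) ^ t * (2 ^ t * Lam g ρ A) :=
          mul_le_mul_of_nonneg_left (h1.trans h2) (by positivity)
      _ = (1 / 2) ^ t * Lam g ρ A := by
          rw [← mul_assoc, ← mul_pow]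
          norm_num
      _ ≤ 1 * Lam g ρ A :=
          mul_le_mul_of_nonneg_right (pow_le_one₀ (by norm_num) (by norm_num)) hL0
      _ = Lam g ρ A := one_mul _

end Vale.Agent.P034
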