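import Vale.Agent.P034.Tal.Class
import Vale.Agent.P034.Tal.Num
import Vale.Agent.P034.Tal.Chain

/-!
# P034: sets of the second type
-/

namespace Vale.Agent.P034

open Finset

variable {X : Type*} [Fintype X] [DecidableEq X]

theorem t2_geom (m : ℕ) :
    ∑ k ∈ range (2 * m), ((1 : ℝ) / 2) ^ ((k + 4) / 2) = 1 - (1 / 2) ^ m := by
  induction m with
  | zero => simp
  | succ m ih =>
    rw [show 2 * (m + 1) = 2 * m + 1 + 1 by ring, sum_range_succ, sum_range_succ, ih,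
      show (2 * m + 4) / 2 = m + 2 by omega, show (2 * m + 1 + 4) / 2 = m + 2 by omega]
    ring

theorem t2_sum_le (K : Finset ℕ) (hK : ∀ k ∈ K, 4 ≤ k) :
    ∑ k ∈ K, ((1 : ℝ) / 2) ^ (k / 2) ≤ 1 := by
  obtain ⟨n, hn⟩ := K.bddAbove
  have hsub : K ⊆ (range (2 * (n + 1))).map (addRightEmbedding 4) := by
    intro k hk
    have h4 := hK k hk
    have h5 : k ≤ n := hn hk
    rw [mem_map]
    exact ⟨k - 4, mem_range.2 (by omega), by rw [addRightEmbedding_apply]; omega⟩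
  calc ∑ k ∈ K, ((1 : ℝ) / 2) ^ (k / 2)
      ≤ ∑ k ∈ (range (2 * (n + 1))).map (addRightEmbedding 4), ((1 : ℝ) / 2) ^ (k / 2) :=
        sum_le_sum_of_subset_of_nonneg hsub fun _ _ _ => by positivity
    _ = ∑ k ∈ range (2 * (n + 1)), ((1 : ℝ) / 2) ^ ((k + 4) / 2) := by
        rw [sum_map]
        rfl
    _ = 1 - (1 / 2) ^ (n + 1) := t2_geom _
    _ ≤ 1 := by
        have : (0 : ℝ) ≤ (1 / 2) ^ (n + 1) := by positivity
        linarith

theorem type_two {p : ℝ} (hp : 0 < p) (hp1 : 2 * p ≤ 1) {t : ℕ} (ht1 : 1 ≤ t)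
    {g : Finset X → ℝ} (hg : ∀ S, 0 ≤ g S) (ht : ∀ S, g S ≠ 0 → S.card = t)
    {θ : ℝ} (hθ : 0 < θ) (hw : fcost g (2 * p) ≤ θ) {l : ℕ} (hl : ell t ≤ l)
    (J : Finset (Finset X)) (hJ : ∀ S ∈ J, 0 < g S ∧ (l : ℝ) ^ (bb t) * g S ≤ θ ∧
      ¬ ∃ E, Wit g (2 * p) θ t l E S) :
    Cov p (fun T => 32 * θ < ms (fun S => if S ∈ J then g S else 0) T)
      (1 / 8 * (1 / 2) ^ l) := by
  classical
  set kf : Finset X → ℕ := fun S => kk θ (g S) with hkf
  set K : Finset ℕ := J.image kf with hKdef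
  set Γ : ℕ → Finset (Finset X) := fun k => J.filter (fun S => kf S = k) with hΓ
  -- facts on members of the classes
  have hmem : ∀ k, ∀ S ∈ Γ k, S ∈ J ∧ kf S = k := fun k S hS => by
    simpa [hΓ] using hS
  have hpow : ∀ S ∈ J, l ^ bb t ≤ 2 ^ kf S := by
    intro S hS
    obtain ⟨h0, h1, _⟩ := hJ S hS
    have h2 : θ ≤ 2 ^ kf S * g S := kk_spec h0
    have h3 : (l : ℝ) ^ bb t * g S ≤ 2 ^ kf S * g S := h1.trans h2
    have h4 : (l : ℝ) ^ bb t ≤ 2 ^ kf S := le_of_mul_le_mul_right h3 h0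
    exact_mod_cast h4
  have hk4 : ∀ S ∈ J, 4 ≤ kf S := fun S hS => num_k_ge ht1 hl (hpow S hS)
  have hK4 : ∀ k ∈ K, 4 ≤ k := by
    intro k hk
    obtain ⟨S, hS, rfl⟩ := mem_image.1 hk
    exact hk4 S hS
  -- the classes
  have hclass : ∀ k ∈ K, Cov p
      (fun T => 16 * ((∑ S ∈ Γ k, g S * (2 * p) ^ t) + (1 / 2) ^ (k / 2) * θ) <
        ms (fun S => if S ∈ Γ k then g S else 0) T) ((1 / 2) ^ (l + 2 * k + t + 5)) := by
    intro k hk
    obtain ⟨S₀, hS₀, hkS₀⟩ := mem_image.1 hk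
    have hlk : l ^ bb t ≤ 2 ^ k := by rw [← hkS₀]; exact hpow S₀ hS₀
    have hbase : (1 : ℝ) ≤ 4 ^ t * (l + 8 ^ t + k : ℝ) ^ bb (t - 1) := by
      have h1 : (1 : ℝ) ≤ 4 ^ t := one_le_pow₀ (by norm_num)
      have h8 : (1 : ℝ) ≤ 8 ^ t := one_le_pow₀ (by norm_num)
      have h2 : (1 : ℝ) ≤ (l + 8 ^ t + k : ℝ) ^ bb (t - 1) := by
        refine one_le_pow₀ ?_
        have h3 : (0 : ℝ) ≤ l := Nat.cast_nonneg l
        have h4 : (0 : ℝ) ≤ k := Nat.cast_nonneg k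
        linarith
      calc (1 : ℝ) = 1 * 1 := by ring
        _ ≤ _ := mul_le_mul h1 h2 zero_le_one (by positivity)
    refine class_bound hp (by linarith) ht1 hg hθ k (by have := hK4 k hk; omega)
      (Q := (4 ^ t * (l + 8 ^ t + k : ℝ) ^ bb (t - 1)) ^ t) (by positivity) (Γ k) ?_ ?_ ?_ ?_ hw
      (l + 2 * k + t + 5) (num_size ht1 hl) ?_
    · intro S hS
      exact ht S (hJ S (hmem k S hS).1).1.ne'
    · intro S hS
      obtain ⟨hSJ, hSk⟩ := hmem k S hS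
      rw [← hSk]
      exact kk_spec (hJ S hSJ).1
    · intro S hS
      obtain ⟨hSJ, hSk⟩ := hmem k S hS
      rw [← hSk]
      exact kk_lt hθ.le (hJ S hSJ).1 (by have := hk4 S hSJ; exact le_trans (by norm_num) this)
    · intro S hS A hA hA0
      obtain ⟨hSJ, hSk⟩ := hmem k S hS
      obtain ⟨h0, _, hnot⟩ := hJ S hSJ
      have h1 : θ ≤ 2 ^ k * g S := by rw [← hSk]; exact kk_spec h0
      have h2 : 2 ^ k * g S ≤ 2 * θ := by
        rw [← hSk]
        exact kk_lt hθ.le h0 (by have := hk4 S hSJ; exact le_trans (by norm_num) this)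
      have h3 := chain hg ht (ρ := 2 * p) (by positivity) h0 h1 hnot A hA hA0
      have h4 : (4 ^ t * (l + 8 ^ t + k : ℝ) ^ bb (t - 1)) ^ (t - A.card)
          ≤ (4 ^ t * (l + 8 ^ t + k : ℝ) ^ bb (t - 1)) ^ t :=
        pow_le_pow_right₀ hbase (Nat.sub_le _ _)
      have hq0 : (0 : ℝ) ≤ (4 ^ t * (l + 8 ^ t + k : ℝ) ^ bb (t - 1)) ^ t := by positivity
      calc 2 ^ k * Lam g (2 * p) A
          ≤ 2 ^ k * (g S * (4 ^ t * (l + 8 ^ t + k : ℝ) ^ bb (t - 1)) ^ (t - A.card)) :=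
            mul_le_mul_of_nonneg_left h3 (by positivity)
        _ ≤ 2 ^ k * (g S * (4 ^ t * (l + 8 ^ t + k : ℝ) ^ bb (t - 1)) ^ t) := by
            refine mul_le_mul_of_nonneg_left (mul_le_mul_of_nonneg_left h4 h0.le) (by positivity)
        _ = (2 ^ k * g S) * (4 ^ t * (l + 8 ^ t + k : ℝ) ^ bb (t - 1)) ^ t := by ring
        _ ≤ 2 * θ * (4 ^ t * (l + 8 ^ t + k : ℝ) ^ bb (t - 1)) ^ t :=
            mul_le_mul_of_nonneg_right h2 hq0
    · have h := num_class ht1 hl hlk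
      have h' : (8 : ℝ) * ((t * (l + 2 * k + t + 5 : ℕ) + 1) *
          (4 ^ t * (l + 8 ^ t + k) ^ bb (t - 1))) ^ t ≤ 2 ^ (k / 2) := by
        exact_mod_cast h
      calc (8 : ℝ) * (t * (l + 2 * k + t + 5 : ℕ) + 1) ^ t *
            (4 ^ t * (l + 8 ^ t + k : ℝ) ^ bb (t - 1)) ^ t
          = 8 * ((t * (l + 2 * k + t + 5 : ℕ) + 1) *
            (4 ^ t * (l + 8 ^ t + k) ^ bb (t - 1))) ^ t := by
            rw [mul_pow (t * ((l + 2 * k + t + 5 : ℕ) : ℝ) + 1)]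
            ring
        _ ≤ _ := h'
  refine (Cov.exists_mem hp.le K hclass).mono ?_ ?_
  · intro T hT
    by_contra hcon
    push Not at hcon
    have hsplit : ms (fun S => if S ∈ J then g S else 0) T =
        ∑ k ∈ K, ms (fun S => if S ∈ Γ k then g S else 0) T := by
      rw [← ms_sum]
      refine ms_congr fun S _ => ?_
      by_cases hS : S ∈ J
      · rw [if_pos hS, sum_eq_single (kf S)]
        · rw [if_pos]
          simp [hΓ, hS]
        · intro k _ hk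
          rw [if_neg]
          intro h
          exact hk (hmem k S h).2.symm
        · intro h
          exact absurd (mem_image_of_mem kf hS) h
      · rw [if_neg hS]
        symm
        refine sum_eq_zero fun k _ => ?_
        rw [if_neg]
        intro h
        exact hS (hmem k S h).1
    have hle : ∑ k ∈ K, ms (fun S => if S ∈ Γ k then g S else 0) T ≤
        ∑ k ∈ K, 16 * ((∑ S ∈ Γ k, g S * (2 * p) ^ t) + (1 / 2) ^ (k / 2) * θ) :=
      sum_le_sum hcon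
    have hsum : ∑ k ∈ K, ∑ S ∈ Γ k, g S * (2 * p) ^ t = ∑ S ∈ J, g S * (2 * p) ^ t := by
      rw [hΓ]
      exact sum_fiberwise_of_maps_to (fun S hS => mem_image_of_mem kf hS) _
    have hJw : ∑ S ∈ J, g S * (2 * p) ^ t ≤ θ := by
      refine le_trans ?_ hw
      rw [fcost_unif ht]
      exact sum_le_univ_sum_of_nonneg fun S => mul_nonneg (hg S) (by positivity)
    have hgeo := t2_sum_le K hK4
    have htot : ∑ k ∈ K, 16 * ((∑ S ∈ Γ k, g S * (2 * p) ^ t) + (1 / 2) ^ (k / 2) * θ) ≤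
        32 * θ := by
      have h1 : (∑ k ∈ K, ((1 : ℝ) / 2) ^ (k / 2)) * θ ≤ 1 * θ :=
        mul_le_mul_of_nonneg_right hgeo hθ.le
      have h2 : ∑ k ∈ K, 16 * ((∑ S ∈ Γ k, g S * (2 * p) ^ t) + (1 / 2) ^ (k / 2) * θ) =
          16 * (∑ k ∈ K, ∑ S ∈ Γ k, g S * (2 * p) ^ t) +
          16 * ((∑ k ∈ K, ((1 : ℝ) / 2) ^ (k / 2)) * θ) := by
        rw [← mul_add, sum_mul, ← sum_add_distrib, mul_sum]
      rw [h2, hsum]
      linarith
    rw [hsplit] at hT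
    linarith
  · have h1 : ∀ k ∈ K, ((1 : ℝ) / 2) ^ (l + 2 * k + t + 5) ≤
        (1 / 8 * (1 / 2) ^ l) * (1 / 2) ^ (k / 2) := by
      intro k _
      have h2 : ((1 : ℝ) / 2) ^ (2 * k + t + 5) ≤ (1 / 2) ^ (k / 2 + 3) :=
        pow_le_pow_of_le_one (by norm_num) (by norm_num) (by omega)
      calc ((1 : ℝ) / 2) ^ (l + 2 * k + t + 5)
          = (1 / 2) ^ l * (1 / 2) ^ (2 * k + t + 5) := by
            rw [← pow_add]
            congr 1
            ring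
        _ ≤ (1 / 2) ^ l * (1 / 2) ^ (k / 2 + 3) :=
            mul_le_mul_of_nonneg_left h2 (by positivity)
        _ = (1 / 8 * (1 / 2) ^ l) * (1 / 2) ^ (k / 2) := by
            rw [pow_add]
            norm_num
            ring
    calc ∑ k ∈ K, ((1 : ℝ) / 2) ^ (l + 2 * k + t + 5)
        ≤ ∑ k ∈ K, (1 / 8 * (1 / 2) ^ l) * (1 / 2) ^ (k / 2) := sum_le_sum h1
      _ = (1 / 8 * (1 / 2) ^ l) * ∑ k ∈ K, ((1 : ℝ) / 2) ^ (k / 2) := by rw [mul_sum]
      _ ≤ (1 / 8 * (1 / 2) ^ l) * 1 :=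
          mul_le_mul_of_nonneg_left (t2_sum_le K hK4) (by positivity)
      _ = 1 / 8 * (1 / 2) ^ l := by ring

end Vale.Agent.P034
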