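import Vale.Agent.P034.Tal.TypeOne
import Vale.Agent.P034.Tal.TypeTwo
import Vale.Agent.P034.Tal.GI

/-!
# P034: the decomposition lemma
-/

namespace Vale.Agent.P034

open Finset

variable {X : Type*} [Fintype X] [DecidableEq X]

theorem decomp {p : ℝ} (hp : 0 < p) (hp1 : 2 * p ≤ 1) {t : ℕ} (ht1 : 1 ≤ t)
    (hA : ∀ d, 1 ≤ d → d < t → ThmA X p d) : Decomp X p t := by
  classical
  intro g θ l hg ht hθ hw hl
  have hρ : 0 < 2 * p := by linarith
  set N : ℝ := (l : ℝ) ^ (bb t) with hN
  set E : Finset X → Finset X := fun S =>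
    if h : ∃ E, Wit g (2 * p) θ t l E S then h.choose else ∅ with hEdef
  set I : Finset (Finset X) := univ.filter (fun S => 0 < g S ∧ ¬ θ < N * g S ∧
    ∃ E, Wit g (2 * p) θ t l E S) with hI
  set J : Finset (Finset X) := univ.filter (fun S => 0 < g S ∧ ¬ θ < N * g S ∧
    ¬ ∃ E, Wit g (2 * p) θ t l E S) with hJ
  have hIW : ∀ S ∈ I, 0 < g S ∧ Wit g (2 * p) θ t l (E S) S := by
    intro S hS
    obtain ⟨h1, _, h3⟩ := (mem_filter.1 hS).2
    refine ⟨h1, ?_⟩
    simp only [hEdef]
    rw [dif_pos h3]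
    exact h3.choose_spec
  have hEs : ∀ S ∈ I, E S ⊆ S := fun S hS => (hIW S hS).2.2.1.subset
  have hEc : ∀ S ∈ I, (E S).card ∈ Ico 1 t := by
    intro S hS
    obtain ⟨hgS, hne, hss, -⟩ := hIW S hS
    exact mem_Ico.2 ⟨hne.card_pos, (ht S hgS.ne') ▸ card_lt_card hss⟩
  have h4 : (0 : ℝ) < (1 / 4) ^ t := by positivity
  refine ⟨fun e => GI g (2 * p) t I E e,
    fun e => (∑ S ∈ I.filter (fun S => (E S).card = e), g S * (2 * p) ^ t) +
      (1 / 4) ^ t * (t.choose e) * θ, ?_, ?_, ?_⟩
  · intro e he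
    have he' := mem_Ico.1 he
    refine ⟨GI_nonneg hg hρ.le t I E e, GI_unif g (2 * p) t I E e, ?_, ?_,
      Lam_GI_le hg ht hρ.le I E hEs he'.2.le⟩
    · rw [fcost_GI ht (2 * p) I E he'.2.le]
      have h5 : (0 : ℝ) ≤ (1 / 4) ^ t * (t.choose e) := by positivity
      have := mul_le_mul_of_nonneg_left hw h5
      linarith
    · have h5 : 0 ≤ ∑ S ∈ I.filter (fun S => (E S).card = e), g S * (2 * p) ^ t :=
        sum_nonneg fun S _ => mul_nonneg (hg S) (pow_nonneg hρ.le _)
      have h6 : (1 : ℝ) ≤ t.choose e := by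
        exact_mod_cast Nat.choose_pos he'.2.le
      have h44 : ((4 : ℝ)) ^ t * (1 / 4) ^ t = 1 := by
        rw [← mul_pow]; norm_num
      calc θ = (4 ^ t * (1 / 4) ^ t) * 1 * θ := by rw [h44]; ring
        _ ≤ (4 ^ t * (1 / 4) ^ t) * (t.choose e) * θ := by
            refine mul_le_mul_of_nonneg_right ?_ hθ.le
            exact mul_le_mul_of_nonneg_left h6 (by positivity)
        _ = 4 ^ t * (0 + (1 / 4) ^ t * (t.choose e) * θ) := by ring
        _ ≤ _ := by
            refine mul_le_mul_of_nonneg_left ?_ (by positivity)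
            linarith
  · rw [sum_add_distrib]
    have h1 : ∑ e ∈ Ico 1 t, ∑ S ∈ I.filter (fun S => (E S).card = e), g S * (2 * p) ^ t ≤ θ := by
      rw [sum_fiberwise_of_maps_to hEc]
      calc ∑ S ∈ I, g S * (2 * p) ^ t ≤ ∑ S : Finset X, g S * (2 * p) ^ t :=
            sum_le_sum_of_subset_of_nonneg (subset_univ _)
              fun S _ _ => mul_nonneg (hg S) (pow_nonneg hρ.le _)
        _ = fcost g (2 * p) := (fcost_unif ht _).symm
        _ ≤ θ := hw
    have h2 : ∑ e ∈ Ico 1 t, ((1 : ℝ) / 4) ^ t * (t.choose e) * θ ≤ 1 / 2 * θ := by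
      rw [← sum_mul, ← mul_sum]
      refine mul_le_mul_of_nonneg_right ?_ hθ.le
      have h3 : ∑ e ∈ Ico 1 t, (t.choose e : ℝ) ≤ 2 ^ t := by
        have h5 : ∑ e ∈ range (t + 1), (t.choose e : ℝ) = 2 ^ t := by
          exact_mod_cast Nat.sum_range_choose t
        rw [← h5]
        refine sum_le_sum_of_subset_of_nonneg ?_ fun _ _ _ => by positivity
        intro e he
        have := mem_Ico.1 he
        exact mem_range.2 (by omega)
      calc ((1 : ℝ) / 4) ^ t * ∑ e ∈ Ico 1 t, (t.choose e : ℝ) ≤ (1 / 4) ^ t * 2 ^ t :=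
            mul_le_mul_of_nonneg_left h3 h4.le
        _ = (1 / 2) ^ t := by rw [← mul_pow]; norm_num
        _ ≤ (1 / 2) ^ 1 := pow_le_pow_of_le_one (by norm_num) (by norm_num) ht1
        _ = 1 / 2 := by norm_num
    linarith
  · have c1 := type_one hp hp1 ht1 hA hg ht hθ hw hl I E hIW
    have c2 := type_two hp hp1 ht1 hg ht hθ hw hl J (by
      intro S hS
      obtain ⟨h1, h2, h3⟩ := (mem_filter.1 hS).2
      exact ⟨h1, not_lt.1 h2, h3⟩)
    refine (Cov.or hp.le c1 c2).mono ?_ ?_
    · intro T hT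
      by_contra hcon
      push Not at hcon
      obtain ⟨h1, h2⟩ := hcon
      have h3 : ms g T = ms (big g θ N) T + ms (fun S => if S ∈ I then g S else 0) T +
          ms (fun S => if S ∈ J then g S else 0) T := by
        unfold ms
        rw [← sum_add_distrib, ← sum_add_distrib]
        refine sum_congr rfl fun S _ => ?_
        unfold big
        rcases (hg S).eq_or_lt with h0 | h0
        · rw [← h0]; simp
        · by_cases hb : θ < N * g S
          · have hSI : S ∉ I := fun h => (mem_filter.1 h).2.2.1 hb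
            have hSJ : S ∉ J := fun h => (mem_filter.1 h).2.2.1 hb
            rw [if_pos hb, if_neg hSI, if_neg hSJ]; ring
          · by_cases hW : ∃ E, Wit g (2 * p) θ t l E S
            · have hSI : S ∈ I := mem_filter.2 ⟨mem_univ _, h0, hb, hW⟩
              have hSJ : S ∉ J := fun h => (mem_filter.1 h).2.2.2 hW
              rw [if_neg hb, if_pos hSI, if_neg hSJ]; ring
            · have hSI : S ∉ I := fun h => hW (mem_filter.1 h).2.2.2
              have hSJ : S ∈ J := mem_filter.2 ⟨mem_univ _, h0, hb, hW⟩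
              rw [if_neg hb, if_neg hSI, if_pos hSJ]; ring
      linarith
    · linarith

end Vale.Agent.P034
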