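import Vale.Agent.P034.Tal.ThmA
import Vale.Agent.P034.Tal.Decomp
import Vale.Agent.P034.Tal.ClassZero

/-!
# P034, piece S: the final pass
-/

namespace Vale.Agent.P034

open Finset

variable {X : Type*} [Fintype X] [DecidableEq X]

theorem thmA_all {p : ℝ} (hp : 0 < p) (hp1 : 2 * p ≤ 1) (t : ℕ) (ht : 1 ≤ t) :
    ThmA X p t := by
  induction t using Nat.strong_induction_on with
  | _ t ih =>
    have hA : ∀ d, 1 ≤ d → d < t → ThmA X p d := fun d h1 h2 => ih d h2 h1
    exact thmA_of_decomp hp hp1 ht hA (decomp hp hp1 ht hA)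

theorem eq_zero_of_fcost {g : Finset X → ℝ} (hg : ∀ S, 0 ≤ g S) {ρ : ℝ} (hρ : 0 < ρ)
    (h : fcost g ρ ≤ 0) (S : Finset X) : g S = 0 := by
  have h1 : ∀ S ∈ (univ : Finset (Finset X)), 0 ≤ g S * ρ ^ S.card := fun S _ =>
    mul_nonneg (hg S) (pow_nonneg hρ.le _)
  have h2 := (sum_eq_zero_iff_of_nonneg h1).1 (le_antisymm h (sum_nonneg h1)) S (mem_univ S)
  rcases mul_eq_zero.1 h2 with h3 | h3
  · exact h3
  · exact absurd h3 (pow_pos hρ _).ne'

theorem CC_ge : (2 : ℝ) ^ 30 ≤ CC := le_rfl

theorem CC_pow_ge {t : ℕ} (ht : 1 ≤ t) : (64 : ℝ) ≤ CC ^ t := by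
  have h1 : (1 : ℝ) ≤ CC := by unfold CC; norm_num
  calc (64 : ℝ) ≤ CC ^ 1 := by unfold CC; norm_num
    _ ≤ CC ^ t := pow_le_pow_right₀ h1 ht

theorem final_pass {p : ℝ} (hp : 0 < p) (hp1 : 2 * p ≤ 1) (t : ℕ) :
    ∀ g : ℕ → Finset X → ℝ, (∀ j S, 0 ≤ g j S) → (∀ j S, g j S ≠ 0 → S.card = j) →
      Cov p (fun T => ∑ j ∈ Ico 1 (t + 1), CC ^ j * fcost (g j) (2 * p) <
        ∑ j ∈ Ico 1 (t + 1), ms (g j) T) (∑ j ∈ Ico 1 (t + 1), (1 / 2) ^ (j + 2)) := by
  induction t with
  | zero =>
    intro g _ _
    exact Cov.of_false (fun T => by simp) (by simp)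
  | succ t ih =>
    intro g hg hu
    have hρ : 0 < 2 * p := by linarith
    have htop : ∀ f : ℕ → ℝ, ∑ j ∈ Ico 1 (t + 1 + 1), f j = ∑ j ∈ Ico 1 (t + 1), f j + f (t + 1) :=
      fun f => sum_Ico_succ_top (by omega) f
    set θ := fcost (g (t + 1)) (2 * p) with hθ
    have hθ0 : 0 ≤ θ := fcost_nonneg (hg _) hρ.le
    rcases hθ0.eq_or_lt with h0 | h0
    · -- trivial top level
      have hz := eq_zero_of_fcost (hg (t + 1)) hρ (by rw [← hθ, ← h0])
      refine (ih g hg hu).mono (fun T hT => ?_) ?_
      · rw [htop, htop] at hT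
        have h1 : ms (g (t + 1)) T = 0 := sum_eq_zero fun S _ => hz S
        rw [h1, ← hθ, ← h0] at hT
        simpa using hT
      · rw [htop]
        have : (0 : ℝ) ≤ (1 / 2) ^ (t + 1 + 2) := by positivity
        linarith
    · -- decomposition
      have hD : Decomp X p (t + 1) := decomp hp hp1 (by omega)
        fun d h1 _ => thmA_all hp hp1 d h1
      obtain ⟨G, τ, hG, hτ, hcov⟩ := hD (g (t + 1)) θ (ell (t + 1)) (hg _) (hu _) h0 le_rfl le_rfl
      set g0 := big (g (t + 1)) θ ((ell (t + 1) : ℝ) ^ (bb (t + 1))) with hg0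
      have hg0le : ∀ S, g0 S ≤ g (t + 1) S := fun S => by
        rw [hg0]; unfold big
        split_ifs
        · exact le_rfl
        · exact hg _ S
      have hg0nn : ∀ S, 0 ≤ g0 S := fun S => by
        rw [hg0]; unfold big
        split_ifs
        · exact hg _ S
        · exact le_rfl
      have hg0u : ∀ S, g0 S ≠ 0 → S.card = t + 1 := fun S hS => by
        refine hu (t + 1) S fun h => hS ?_
        exact le_antisymm ((hg0le S).trans h.le) (hg0nn S)
      have hg0w : fcost g0 (2 * p) ≤ θ := by
        rw [hθ]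
        exact sum_le_sum fun S _ => mul_le_mul_of_nonneg_right (hg0le S) (pow_nonneg hρ.le _)
      have hg0b : ∀ S, g0 S ≠ 0 → θ < (ell (t + 1) : ℝ) ^ (bb (t + 1)) * g0 S := fun S hS => by
        rw [hg0] at hS ⊢
        unfold big at hS ⊢
        split_ifs at hS ⊢ with h
        · exact h
        · exact absurd rfl hS
      have hZ := class_zero hp hp1 (by omega : 1 ≤ t + 1) hg0nn hg0u h0 hg0w hg0b
      -- new functions
      set g' : ℕ → Finset X → ℝ := fun j S => if j ∈ Ico 1 (t + 1) then
        g j S + BB (t + 1 - j) * G j S else 0 with hg'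
      have hih := ih g' (fun j S => by
        rw [hg']; dsimp only
        split_ifs with h
        · exact add_nonneg (hg j S) (mul_nonneg (BB_nonneg _) ((hG j h).1 S))
        · exact le_rfl) (fun j S hS => by
        rw [hg'] at hS; dsimp only at hS
        split_ifs at hS with h
        · by_cases h1 : g j S = 0
          · by_cases h2 : G j S = 0
            · rw [h1, h2] at hS; simp at hS
            · exact (hG j h).2.1 S h2
          · exact hu j S h1
        · exact absurd rfl hS)
      refine ((hcov.or hp.le hZ).or hp.le hih).mono (fun T hT => ?_) ?_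
      · by_contra hcon
        push Not at hcon
        obtain ⟨⟨c1, c2⟩, c3⟩ := hcon
        rw [htop, htop] at hT
        have e1 : ∑ j ∈ Ico 1 (t + 1), ms (g' j) T = ∑ j ∈ Ico 1 (t + 1), ms (g j) T +
            ∑ j ∈ Ico 1 (t + 1), BB (t + 1 - j) * ms (G j) T := by
          rw [← sum_add_distrib]
          refine sum_congr rfl fun j hj => ?_
          rw [← ms_mul, ← ms_add]
          refine ms_congr fun S _ => ?_
          rw [hg']; dsimp only
          rw [if_pos hj]
        have e2 : ∑ j ∈ Ico 1 (t + 1), CC ^ j * fcost (g' j) (2 * p) =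
            ∑ j ∈ Ico 1 (t + 1), CC ^ j * fcost (g j) (2 * p) +
            ∑ j ∈ Ico 1 (t + 1), CC ^ (t + 1) / 4 * fcost (G j) (2 * p) := by
          rw [← sum_add_distrib]
          refine sum_congr rfl fun j hj => ?_
          have e3 : fcost (g' j) (2 * p) = fcost (g j) (2 * p) +
              BB (t + 1 - j) * fcost (G j) (2 * p) := by
            rw [← fcost_mul, ← fcost_add]
            refine sum_congr rfl fun S _ => ?_
            rw [hg']; dsimp only
            rw [if_pos hj]
          rw [e3]
          have e4 : CC ^ j * BB (t + 1 - j) = CC ^ (t + 1) / 4 := by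
            unfold BB
            have : CC ^ (t + 1) = CC ^ j * CC ^ (t + 1 - j) := by
              rw [← pow_add]
              congr 1
              have := (mem_Ico.1 hj).2
              omega
            rw [this]
            ring
          rw [mul_add, ← mul_assoc, e4]
        have e5 : ∑ j ∈ Ico 1 (t + 1), CC ^ (t + 1) / 4 * fcost (G j) (2 * p) ≤
            CC ^ (t + 1) / 4 * (3 / 2 * θ) := by
          rw [← mul_sum]
          refine mul_le_mul_of_nonneg_left ?_ (by have := CC_pos; positivity)
          exact (sum_le_sum fun j hj => (hG j hj).2.2.1).trans hτ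
        have hC := CC_pow_ge (by omega : 1 ≤ t + 1)
        rw [e1, e2] at c3
        have h6 : 32 * θ ≤ CC ^ (t + 1) / 2 * θ := by nlinarith
        nlinarith
      · rw [htop]
        have h1 : (1 / 2 : ℝ) ^ ell (t + 1) ≤ (1 / 2) ^ (t + 1 + 2) := by
          refine pow_le_pow_of_le_one (by norm_num) (by norm_num) ?_
          unfold ell
          have : t + 1 + 2 < 8 ^ (t + 1 + 1) := by
            calc t + 1 + 2 < 2 ^ (t + 1 + 2) := Nat.lt_two_pow_self
              _ ≤ 8 ^ (t + 1 + 1) := by
                rw [show 8 = 2 ^ 3 by norm_num, ← pow_mul]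
                exact Nat.pow_le_pow_right (by norm_num) (by omega)
          omega
        have h2 : (1 / 2 : ℝ) ^ (t + 1 + 5) = (1 / 2) ^ (t + 1 + 2) / 8 := by
          rw [show t + 1 + 5 = (t + 1 + 2) + 3 by ring, pow_add]
          norm_num
          ring
        have h3 : (0 : ℝ) < (1 / 2) ^ (t + 1 + 2) := by positivity
        linarith

theorem geo_sum (n : ℕ) : ∑ j ∈ Ico 1 (n + 1), (1 / 2 : ℝ) ^ (j + 2) ≤ 1 / 2 := by
  have h : ∀ n : ℕ, ∑ j ∈ Ico 1 (n + 1), (1 / 2 : ℝ) ^ (j + 2) = 1 / 4 - (1 / 2) ^ (n + 2) := by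
    intro n
    induction n with
    | zero => norm_num
    | succ n ih =>
      rw [sum_Ico_succ_top (by omega), ih]
      ring
  rw [h]
  have : (0 : ℝ) < (1 / 2) ^ (n + 2) := by positivity
  linarith

/-- The fractional and the integral expectation thresholds differ by at most a constant factor. -/
theorem qf_le_const (F : Set (Finset X)) : qf F ≤ 2 ^ 33 * q F := by
  have hq := q_nonneg F
  refine Real.sSup_le ?_ (by positivity)
  rintro P ⟨hP0, hP1, g, hg, hw⟩
  rcases hP0.eq_or_lt with h | hP
  · rw [← h]; positivity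
  set p : ℝ := P / 2 ^ 33 with hp
  have hp0 : 0 < p := by positivity
  have hPp : P = 2 ^ 33 * p := by rw [hp]; field_simp
  have hp1 : 2 * p ≤ 1 := by
    rw [hPp] at hP1
    norm_num at hP1 ⊢
    linarith
  set n := Fintype.card X with hn
  set gj : ℕ → Finset X → ℝ := fun j S => if S.card = j then g S else 0 with hgj
  have hgj0 : ∀ j S, 0 ≤ gj j S := fun j S => by
    rw [hgj]; dsimp only
    split_ifs
    · exact (hg.1 S).1
    · exact le_rfl
  have hcov := final_pass hp0 hp1 n gj hgj0 (fun j S hS => by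
    rw [hgj] at hS; dsimp only at hS
    by_contra h
    rw [if_neg h] at hS
    exact hS rfl)
  obtain ⟨G, hG, hGc⟩ := hcov
  have hsmall : IsSmall F p := by
    refine ⟨G, fun T hT => hG T ?_, hGc.trans (geo_sum n)⟩
    -- the cost
    have h1 : ∀ j ∈ Ico 1 (n + 1), CC ^ j * fcost (gj j) (2 * p) ≤ 1 / 4 * fcost (gj j) P := by
      intro j hj
      unfold fcost
      rw [mul_sum, mul_sum]
      refine sum_le_sum fun S _ => ?_
      by_cases hS : S.card = j
      · rw [hS]
        have hj1 : 1 ≤ j := (mem_Ico.1 hj).1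
        have h2 : CC ^ j * (2 * p) ^ j ≤ 1 / 4 * P ^ j := by
          rw [← mul_pow, show CC * (2 * p) = 1 / 4 * P by rw [hPp]; unfold CC; ring, mul_pow]
          refine mul_le_mul_of_nonneg_right ?_ (by positivity)
          calc (1 / 4 : ℝ) ^ j ≤ (1 / 4) ^ 1 :=
                pow_le_pow_of_le_one (by norm_num) (by norm_num) hj1
            _ = 1 / 4 := by norm_num
        calc CC ^ j * (gj j S * (2 * p) ^ j) = gj j S * (CC ^ j * (2 * p) ^ j) := by ring
          _ ≤ gj j S * (1 / 4 * P ^ j) := mul_le_mul_of_nonneg_left h2 (hgj0 j S)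
          _ = 1 / 4 * (gj j S * P ^ j) := by ring
      · have : gj j S = 0 := by rw [hgj]; dsimp only; rw [if_neg hS]
        rw [this]; simp
    have hdec : ∀ (w : Finset X → ℝ) (s : Finset (Finset X)),
        ∑ j ∈ Ico 1 (n + 1), ∑ S ∈ s, gj j S * w S = ∑ S ∈ s.filter (fun S => S ≠ ∅), g S * w S := by
      intro w s
      rw [sum_comm, sum_filter]
      refine sum_congr rfl fun S _ => ?_
      by_cases hS : S = ∅
      · rw [if_neg (by simpa using hS)]
        refine sum_eq_zero fun j hj => ?_
        rw [hgj]; dsimp only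
        rw [if_neg, zero_mul]
        rw [hS, card_empty]
        have := (mem_Ico.1 hj).1
        omega
      · rw [if_pos hS, sum_eq_single S.card]
        · rw [hgj]; dsimp only; rw [if_pos rfl]
        · intro j _ hj
          rw [hgj]; dsimp only; rw [if_neg (Ne.symm hj), zero_mul]
        · intro h
          exfalso
          apply h
          rw [mem_Ico]
          have h1 : 0 < S.card := card_pos.2 (nonempty_iff_ne_empty.2 hS)
          have h2 : S.card ≤ n := card_le_univ S
          omega
    have h3 : ∑ j ∈ Ico 1 (n + 1), CC ^ j * fcost (gj j) (2 * p) ≤ 1 / 8 := by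
      calc _ ≤ ∑ j ∈ Ico 1 (n + 1), 1 / 4 * fcost (gj j) P := sum_le_sum h1
        _ = 1 / 4 * ∑ S ∈ (univ : Finset (Finset X)).filter (fun S => S ≠ ∅),
              g S * P ^ S.card := by
            rw [← mul_sum]
            congr 1
            exact hdec (fun S => P ^ S.card) univ
        _ ≤ 1 / 4 * fcost g P := by
            refine mul_le_mul_of_nonneg_left ?_ (by norm_num)
            exact sum_le_sum_of_subset_of_nonneg (filter_subset _ _) fun S _ _ =>
              mul_nonneg (hg.1 S).1 (by positivity)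
        _ ≤ 1 / 8 := by linarith
    have h4 : g ∅ ≤ 1 / 2 := by
      have : g ∅ * P ^ (∅ : Finset X).card ≤ fcost g P :=
        single_le_sum (f := fun S => g S * P ^ S.card)
          (fun S _ => mul_nonneg (hg.1 S).1 (by positivity)) (mem_univ ∅)
      rw [card_empty, pow_zero, mul_one] at this
      linarith
    have h5 : 1 / 2 ≤ ∑ j ∈ Ico 1 (n + 1), ms (gj j) T := by
      have e1 := hdec (fun _ => 1) T.powerset
      simp only [mul_one] at e1
      unfold ms
      rw [e1]
      have e2 := hg.2 T hT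
      have e3 : ∑ S ∈ T.powerset, g S = ∑ S ∈ T.powerset.filter (fun S => S ≠ ∅), g S +
          ∑ S ∈ T.powerset.filter (fun S => ¬ S ≠ ∅), g S :=
        (sum_filter_add_sum_filter_not _ _ _).symm
      have e4 : ∑ S ∈ T.powerset.filter (fun S => ¬ S ≠ ∅), g S = g ∅ := by
        have : T.powerset.filter (fun S => ¬ S ≠ ∅) = {∅} := by
          ext S
          simp only [mem_filter, mem_powerset, not_not, mem_singleton]
          exact ⟨fun h => h.2, fun h => ⟨h ▸ empty_subset T, h⟩⟩
        rw [this, sum_singleton]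
      linarith
    linarith
  have h1 : p ≤ q F := le_q hp0.le (by linarith) hsmall
  rw [hPp]
  exact mul_le_mul_of_nonneg_left h1 (by positivity)

end Vale.Agent.P034
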