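import Vale.Agent.P034.Tal.Master

/-!
# P034: the jump lemma
-/

namespace Vale.Agent.P034

open Finset

variable {X : Type*} [Fintype X] [DecidableEq X]

theorem jump {p : ℝ} (hp : 0 < p) (hp1 : p ≤ 1) (F : Finset X → Prop) {g : Finset X → ℝ}
    (hg : ∀ S, 0 ≤ g S) {t : ℕ} (ht : ∀ S, g S ≠ 0 → S.card ≤ t)
    (s : ℕ) (hs : ∀ T, F T → T.card ≤ s) (hcov : ∀ T, F T → 1 ≤ ms g T)
    (r : ℕ) (hr : s + 2 * r + 2 ≤ 2 ^ r) :
    Cov p (fun T => F T ∧ ∀ W ⊆ T, W.card ≤ t * r → boost g (2 * p) W < 1 / 4)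
      ((1 / 2) ^ r) := by
  have hM := master hp hp1
    (fun T => F T ∧ ∀ W ⊆ T, W.card ≤ t * r → boost g (2 * p) W < 1 / 4)
    (tens g (2 * p) (1 / 4) r) (tens_nonneg hg _ _ _) s (fun T hT => hs T hT.1)
    (fun T hT => tens_cover hg ht (hcov T hT.1) hT.2 r le_rfl)
    ((s : ℝ) + 2 * r) (by positivity)
  refine hM.mono (fun T hT => hT) ?_
  have h1 : fcost (tens g (2 * p) (1 / 4) r) (2 * p) ≤ (1 / 4) ^ r :=
    tens_cost hg (by positivity) (by norm_num) r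
  have h2 : (s : ℝ) + 2 * r + 2 ≤ 2 ^ r := by exact_mod_cast hr
  have h3 : Real.exp (-((s : ℝ) + 2 * r)) * 2 ^ s ≤ (1 / 4) ^ r := by
    have hx : ∀ n : ℕ, Real.exp (-(n : ℝ)) ≤ (1 / 2) ^ n := by
      intro n
      have h4 : Real.exp (-(n : ℝ)) = Real.exp (-1) ^ n := by
        rw [← Real.exp_nat_mul]; congr 1; ring
      rw [h4]
      refine pow_le_pow_left₀ (Real.exp_nonneg _) ?_ n
      have h5 := Real.add_one_le_exp (1 : ℝ)
      rw [Real.exp_neg, one_div]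
      exact inv_anti₀ (by norm_num) (by linarith)
    have h6 : Real.exp (-((s : ℝ) + 2 * r)) = Real.exp (-(s : ℝ)) * Real.exp (-((2 * r : ℕ) : ℝ)) := by
      rw [← Real.exp_add]; congr 1; push_cast; ring
    rw [h6]
    calc Real.exp (-(s : ℝ)) * Real.exp (-((2 * r : ℕ) : ℝ)) * 2 ^ s
        ≤ (1 / 2) ^ s * (1 / 2) ^ (2 * r) * 2 ^ s := by
          gcongr
          · exact hx s
          · exact hx (2 * r)
      _ = (1 / 4) ^ r := by
          rw [pow_mul]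
          have : ((1 : ℝ) / 2) ^ s * 2 ^ s = 1 := by rw [← mul_pow]; norm_num
          calc ((1 : ℝ) / 2) ^ s * ((1 / 2) ^ 2) ^ r * 2 ^ s
              = (((1 : ℝ) / 2) ^ s * 2 ^ s) * ((1 / 2) ^ 2) ^ r := by ring
            _ = (1 / 4) ^ r := by rw [this]; norm_num
  have h4 : (0 : ℝ) < (1 / 4) ^ r := by positivity
  calc ((s : ℝ) + 2 * r + 1) * fcost (tens g (2 * p) (1 / 4) r) (2 * p) +
        Real.exp (-((s : ℝ) + 2 * r)) * 2 ^ s
      ≤ ((s : ℝ) + 2 * r + 1) * (1 / 4) ^ r + (1 / 4) ^ r := by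
        refine add_le_add (mul_le_mul_of_nonneg_left h1 (by positivity)) h3
    _ = ((s : ℝ) + 2 * r + 2) * (1 / 4) ^ r := by ring
    _ ≤ 2 ^ r * (1 / 4) ^ r := mul_le_mul_of_nonneg_right h2 h4.le
    _ = (1 / 2) ^ r := by rw [← mul_pow]; norm_num

/-- The jump lemma: pass to seeds, with the cover `seedCover g (2p) (1/4)` of the seeds. -/
theorem jump_seeds {p : ℝ} (hp : 0 < p) (hp1 : p ≤ 1) (F : Finset X → Prop) {g : Finset X → ℝ}
    (hg : ∀ S, 0 ≤ g S) {t : ℕ} (ht : ∀ S, g S ≠ 0 → S.card ≤ t)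
    (s : ℕ) (hs : ∀ T, F T → T.card ≤ s) (hcov : ∀ T, F T → 1 ≤ ms g T)
    (r : ℕ) (hr : s + 2 * r + 2 ≤ 2 ^ r) {c : ℝ}
    (hseeds : Cov p (fun W => W.card ≤ t * r ∧ 1 ≤ ms (seedCover g (2 * p) (1 / 4)) W) c) :
    Cov p F (c + (1 / 2) ^ r) := by
  have h1 := jump hp hp1 F hg ht s hs hcov r hr
  have h2 : Cov p (fun T => ∃ W ⊆ T, W.card ≤ t * r ∧ 1 / 4 ≤ boost g (2 * p) W) c := by
    refine hseeds.of_subset ?_
    rintro T ⟨W, hWT, hW1, hW2⟩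
    exact ⟨W, hWT, hW1, seedCover_cover hg (by positivity) (by norm_num) hW2⟩
  refine (h2.or hp.le h1).mono ?_ le_rfl
  intro T hT
  by_cases h : ∀ W ⊆ T, W.card ≤ t * r → boost g (2 * p) W < 1 / 4
  · exact Or.inr ⟨hT, h⟩
  · push Not at h
    exact Or.inl h

end Vale.Agent.P034
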