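import Vale.Agent.P034.Tal.Round

/-!
# P034: the master lemma (piece M)
-/

namespace Vale.Agent.P034

open Finset

variable {X : Type*} [Fintype X] [DecidableEq X]

/-- The master lemma: rounding applied to the minimum fragments of a random set. -/
theorem master {p : ℝ} (hp : 0 < p) (hp1 : p ≤ 1) (F : Finset X → Prop) (h : Finset X → ℝ)
    (hh : ∀ S, 0 ≤ h S) (s : ℕ) (hs : ∀ T, F T → T.card ≤ s) (hcov : ∀ T, F T → 1 ≤ ms h T)
    (R : ℝ) (hR : 0 ≤ R) :
    Cov p F ((R + 1) * fcost h (2 * p) + Real.exp (-R) * 2 ^ s) := by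
  classical
  set 𝓗 : Finset (Finset X) := univ.filter F with h𝓗
  have hmem : ∀ T, T ∈ 𝓗 ↔ F T := fun T => by simp [h𝓗]
  -- choose `W`
  obtain ⟨W, hW⟩ := exists_le_of_mu (X := X) hp.le hp1
    (fun W => (R + 1) * fcost (frag h W) p + Real.exp (-R) * cost p (bigFrag 𝓗 0 W))
    ((R + 1) * fcost h (2 * p) + Real.exp (-R) * 2 ^ s) (by
      have e1 : ∑ W : Finset X, mu p W * fcost (frag h W) p ≤ fcost h (2 * p) := by
        have := sum_mu_fcost_frag hh hp.le hp1 hp.le (a := p)
        rwa [← two_mul] at this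
      have e2 : ∑ W : Finset X, mu p W * cost p (bigFrag 𝓗 0 W) ≤ 2 ^ s := by
        have := sum_mu_bigFrag (B := 1) (p := p) le_rfl hp (by rw [one_mul]; exact hp1) 𝓗 0 s
          (fun H hH => hs H ((hmem H).1 hH))
        simpa using this
      calc ∑ W : Finset X, mu p W *
            ((R + 1) * fcost (frag h W) p + Real.exp (-R) * cost p (bigFrag 𝓗 0 W))
          = (R + 1) * ∑ W : Finset X, mu p W * fcost (frag h W) p +
            Real.exp (-R) * ∑ W : Finset X, mu p W * cost p (bigFrag 𝓗 0 W) := by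
            rw [mul_sum, mul_sum, ← sum_add_distrib]
            exact sum_congr rfl fun W _ => by ring
        _ ≤ _ := add_le_add (mul_le_mul_of_nonneg_left e1 (by linarith))
            (mul_le_mul_of_nonneg_left e2 (Real.exp_pos _).le))
  obtain ⟨G, hG1, hG2⟩ := rounding hp (bigFrag 𝓗 0 W) (fun V => p ^ V.card) (frag h W)
    (fun V => by positivity) (frag_nonneg hh W) (by
      intro V hV
      obtain ⟨H, hH, rfl⟩ := mem_image.1 hV
      exact frag_cover hh W H (hcov H ((hmem H).1 (mem_filter.1 hH).1))) R hR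
  refine ⟨G ∪ (bigFrag 𝓗 0 W).filter (fun T => ¬ ∃ S ∈ G, S ⊆ T), ?_, ?_⟩
  · intro T hT
    obtain ⟨H', hH', hsub, h1 | h1⟩ := frag_dichotomy 𝓗 0 W T ((hmem T).2 hT)
    · exact absurd h1 (Nat.not_lt_zero _)
    · by_cases h2 : ∃ S ∈ G, S ⊆ H' \ W
      · obtain ⟨S, hS, hSH⟩ := h2
        exact ⟨S, mem_union_left _ hS, hSH.trans hsub⟩
      · exact ⟨H' \ W, mem_union_right _ (mem_filter.2 ⟨h1, h2⟩), hsub⟩
  · refine (cost_union_le hp.le _ _).trans (le_trans (add_le_add hG1 ?_) hW)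
    exact hG2

end Vale.Agent.P034
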