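import Vale.Agent.P034.Tal.Base

/-!
# P034: the rounding lemma (piece R)
-/

namespace Vale.Agent.P034

open Finset

variable {X : Type*} [Fintype X] [DecidableEq X]

/-- One averaging step: some `A` has `ω(V_A) ≥ (p^{|A|} / w(h)) ω(V)`. -/
theorem rounding_step {p : ℝ} (hp : 0 < p) (V : Finset (Finset X)) (ω h : Finset X → ℝ)
    (hω : ∀ T, 0 ≤ ω T) (hh : ∀ S, 0 ≤ h S) (hcov : ∀ T ∈ V, 1 ≤ ms h T)
    (hV : 0 < ∑ T ∈ V, ω T) :
    ∃ A : Finset X, p ^ A.card * ∑ T ∈ V, ω T ≤ fcost h p * ∑ T ∈ V.filter (fun T => A ⊆ T), ω T ∧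
      0 < ∑ T ∈ V.filter (fun T => A ⊆ T), ω T := by
  set Ω := ∑ T ∈ V, ω T with hΩ
  set ψ : Finset X → ℝ := fun A => ∑ T ∈ V.filter (fun T => A ⊆ T), ω T with hψ
  have hψ0 : ∀ A, 0 ≤ ψ A := fun A => sum_nonneg fun T _ => hω T
  -- double counting
  have h1 : Ω ≤ ∑ A : Finset X, h A * ψ A := by
    calc Ω ≤ ∑ T ∈ V, ω T * ms h T := by
          refine sum_le_sum fun T hT => ?_
          exact le_mul_of_one_le_right (hω T) (hcov T hT)
      _ = ∑ T ∈ V, ∑ A : Finset X, (if A ⊆ T then ω T * h A else 0) := by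
          refine sum_congr rfl fun T _ => ?_
          unfold ms
          rw [mul_sum, ← sum_filter]
          refine sum_congr ?_ fun _ _ => rfl
          ext A
          simp
      _ = ∑ A : Finset X, h A * ψ A := by
          rw [sum_comm]
          refine sum_congr rfl fun A _ => ?_
          rw [hψ, mul_sum, ← sum_filter]
          exact sum_congr rfl fun T _ => mul_comm _ _
  by_contra hcon
  push Not at hcon
  have h2 : ∀ A : Finset X, h A * (fcost h p * ψ A) ≤ h A * (p ^ A.card * Ω) := by
    intro A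
    refine mul_le_mul_of_nonneg_left ?_ (hh A)
    by_contra h3
    push Not at h3
    have h4 := hcon A h3.le
    have h5 : ψ A = 0 := le_antisymm h4 (hψ0 A)
    rw [h5, mul_zero] at h3
    have : 0 ≤ p ^ A.card * Ω := by positivity
    linarith
  have h3 : ∀ A : Finset X, 0 < h A → 0 < ψ A → h A * (fcost h p * ψ A) < h A * (p ^ A.card * Ω) := by
    intro A hA hψA
    refine mul_lt_mul_of_pos_left ?_ hA
    by_contra h4
    push Not at h4
    exact absurd hψA (not_lt.2 (hcon A h4))
  -- some A has h A > 0 and psi A > 0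
  have h4 : ∃ A : Finset X, 0 < h A * ψ A := by
    by_contra h5
    push Not at h5
    have := sum_nonpos (s := (univ : Finset (Finset X))) fun A _ => h5 A
    linarith
  obtain ⟨A, hA⟩ := h4
  have hA1 : 0 < h A := by
    rcases (hh A).lt_or_eq with h | h
    · exact h
    · rw [← h, zero_mul] at hA; exact absurd hA (lt_irrefl _)
  have hA2 : 0 < ψ A := by
    rcases (hψ0 A).lt_or_eq with h | h
    · exact h
    · rw [← h, mul_zero] at hA; exact absurd hA (lt_irrefl _)
  have h5 : ∑ A : Finset X, h A * (fcost h p * ψ A) < ∑ A : Finset X, h A * (p ^ A.card * Ω) :=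
    sum_lt_sum (fun A _ => h2 A) ⟨A, mem_univ A, h3 A hA1 hA2⟩
  have h6 : ∑ A : Finset X, h A * (p ^ A.card * Ω) = fcost h p * Ω := by
    unfold fcost
    rw [sum_mul]
    exact sum_congr rfl fun A _ => by ring
  have h7 : ∑ A : Finset X, h A * (fcost h p * ψ A) = fcost h p * ∑ A : Finset X, h A * ψ A := by
    rw [mul_sum]
    exact sum_congr rfl fun A _ => by ring
  rw [h6, h7] at h5
  have h8 : fcost h p * Ω ≤ fcost h p * ∑ A : Finset X, h A * ψ A :=
    mul_le_mul_of_nonneg_left h1 (fcost_nonneg hh hp.le)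
  linarith

/-- The rounding lemma. -/
theorem rounding {p : ℝ} (hp : 0 < p) (V : Finset (Finset X)) (ω h : Finset X → ℝ)
    (hω : ∀ T, 0 ≤ ω T) (hh : ∀ S, 0 ≤ h S) (hcov : ∀ T ∈ V, 1 ≤ ms h T)
    (R : ℝ) (hR : 0 ≤ R) :
    ∃ G : Finset (Finset X), cost p G ≤ (R + 1) * fcost h p ∧
      ∑ T ∈ V.filter (fun T => ¬ ∃ S ∈ G, S ⊆ T), ω T ≤ Real.exp (-R) * ∑ T ∈ V, ω T := by
  have hc0 : 0 ≤ fcost h p := fcost_nonneg hh hp.le
  have key : ∀ (n : ℕ) (V : Finset (Finset X)), V.card ≤ n → (∀ T ∈ V, 1 ≤ ms h T) →
      ∀ R : ℝ, 0 ≤ R → ∃ G : Finset (Finset X), cost p G ≤ (R + 1) * fcost h p ∧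
      ∑ T ∈ V.filter (fun T => ¬ ∃ S ∈ G, S ⊆ T), ω T ≤ Real.exp (-R) * ∑ T ∈ V, ω T := by
    intro n
    induction n with
    | zero =>
      intro V hV _ R hR
      have : V = ∅ := by simpa using hV
      subst this
      refine ⟨∅, ?_, by simp⟩
      simp only [cost, sum_empty]
      positivity
    | succ n ih =>
      intro V hV hcov R hR
      rcases (sum_nonneg fun T _ => hω T : 0 ≤ ∑ T ∈ V, ω T).lt_or_eq with hpos | hzero
      swap
      · refine ⟨∅, ?_, ?_⟩
        · simp only [cost, sum_empty]
          positivity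
        · rw [← hzero, mul_zero, hzero]
          exact sum_le_sum_of_subset_of_nonneg (filter_subset _ _) fun T _ _ => hω T
      obtain ⟨A, hA1, hA2⟩ := rounding_step hp V ω h hω hh hcov hpos
      set Ω := ∑ T ∈ V, ω T with hΩ
      set ΩA := ∑ T ∈ V.filter (fun T => A ⊆ T), ω T with hΩA
      set V' := V.filter (fun T => ¬ A ⊆ T) with hV'
      have hsplit : ΩA + ∑ T ∈ V', ω T = Ω := sum_filter_add_sum_filter_not V (fun T => A ⊆ T) ω
      have hle : ΩA ≤ Ω := sum_le_sum_of_subset_of_nonneg (filter_subset _ _) fun T _ _ => hω T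
      have hpA : 0 < p ^ A.card := pow_pos hp _
      have hc : 0 < fcost h p := by
        rcases hc0.lt_or_eq with h1 | h1
        · exact h1
        · rw [← h1, zero_mul] at hA1
          have : 0 < p ^ A.card * Ω := mul_pos hpA hpos
          linarith
      set c := fcost h p with hcdef
      set x := p ^ A.card / c with hx
      have hx0 : 0 < x := div_pos hpA hc
      have hxc : x * c = p ^ A.card := div_mul_cancel₀ _ hc.ne'
      have hxΩ : x * Ω ≤ ΩA := by
        have : c * (x * Ω) ≤ c * ΩA := by
          calc c * (x * Ω) = (x * c) * Ω := by ring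
            _ = p ^ A.card * Ω := by rw [hxc]
            _ ≤ c * ΩA := hA1
        exact le_of_mul_le_mul_left this hc
      have hx1 : x ≤ 1 := by
        have : x * Ω ≤ 1 * Ω := by rw [one_mul]; exact hxΩ.trans hle
        exact le_of_mul_le_mul_right this hpos
      have hrest : ∑ T ∈ V', ω T ≤ Real.exp (-x) * Ω := by
        have h1 : 1 - x ≤ Real.exp (-x) := by
          have := Real.add_one_le_exp (-x); linarith
        calc ∑ T ∈ V', ω T = Ω - ΩA := by linarith
          _ ≤ (1 - x) * Ω := by linarith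
          _ ≤ Real.exp (-x) * Ω := mul_le_mul_of_nonneg_right h1 hpos.le
      by_cases hRx : R ≤ x
      · refine ⟨{A}, ?_, ?_⟩
        · simp only [cost, sum_singleton]
          rw [← hxc]
          nlinarith
        · have h1 : V.filter (fun T => ¬ ∃ S ∈ ({A} : Finset (Finset X)), S ⊆ T) = V' := by
            rw [hV']
            refine filter_congr fun T _ => ?_
            simp
          rw [h1]
          refine hrest.trans (mul_le_mul_of_nonneg_right ?_ hpos.le)
          exact Real.exp_le_exp.2 (by linarith)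
      · push Not at hRx
        have hcard : V'.card ≤ n := by
          have h1 : V' ⊂ V := by
            rw [hV', filter_ssubset]
            have hne : (V.filter (fun T => A ⊆ T)).Nonempty := by
              by_contra h2
              rw [not_nonempty_iff_eq_empty] at h2
              rw [hΩA, h2, sum_empty] at hA2
              exact lt_irrefl _ hA2
            obtain ⟨T, hT⟩ := hne
            rw [mem_filter] at hT
            exact ⟨T, hT.1, not_not.2 hT.2⟩
          have := card_lt_card h1
          omega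
        obtain ⟨G', hG1, hG2⟩ := ih V' hcard
          (fun T hT => hcov T (mem_filter.1 hT).1) (R - x) (by linarith)
        refine ⟨{A} ∪ G', ?_, ?_⟩
        · refine (cost_union_le hp.le _ _).trans ?_
          have h1 : cost p ({A} : Finset (Finset X)) = x * c := by
            rw [hxc]; simp [cost]
          rw [h1]
          linarith
        · have h1 : V.filter (fun T => ¬ ∃ S ∈ ({A} ∪ G' : Finset (Finset X)), S ⊆ T) ⊆
              V'.filter (fun T => ¬ ∃ S ∈ G', S ⊆ T) := by
            intro T hT
            rw [mem_filter] at hT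
            rw [mem_filter, hV', mem_filter]
            refine ⟨⟨hT.1, fun hAT => hT.2 ⟨A, mem_union_left _ (mem_singleton_self A), hAT⟩⟩, ?_⟩
            rintro ⟨S, hS, hST⟩
            exact hT.2 ⟨S, mem_union_right _ hS, hST⟩
          refine (sum_le_sum_of_subset_of_nonneg h1 fun T _ _ => hω T).trans ?_
          refine hG2.trans ?_
          calc Real.exp (-(R - x)) * ∑ T ∈ V', ω T
              ≤ Real.exp (-(R - x)) * (Real.exp (-x) * Ω) :=
                mul_le_mul_of_nonneg_left hrest (Real.exp_pos _).le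
            _ = Real.exp (-R) * Ω := by
                rw [← mul_assoc, ← Real.exp_add]; congr 2; ring
  exact key V.card V le_rfl hcov R hR

end Vale.Agent.P034
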