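import Vale.Agent.P034.Tal.Num

/-!
# P034, piece A: Theorem A from the decomposition lemma
-/

namespace Vale.Agent.P034

open Finset

variable {X : Type*} [Fintype X] [DecidableEq X]

theorem ell_mono : Monotone ell := fun _ _ h => Nat.pow_le_pow_right (by norm_num) (by omega)

theorem ell_pos (t : ℕ) : 1 ≤ ell t := Nat.one_le_pow _ _ (by norm_num)

theorem CC_pow_ge_aux {t : ℕ} (ht : 1 ≤ t) : (1024 : ℝ) ≤ CC ^ t := by
  have h1 : (1 : ℝ) ≤ CC := by unfold CC; norm_num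
  calc (1024 : ℝ) ≤ CC ^ 1 := by unfold CC; norm_num
    _ ≤ CC ^ t := pow_le_pow_right₀ h1 ht

theorem thmA_of_decomp {p : ℝ} (hp : 0 < p) (hp1 : 2 * p ≤ 1) {t : ℕ} (ht1 : 1 ≤ t)
    (hA : ∀ d, 1 ≤ d → d < t → ThmA X p d) (hD : Decomp X p t) : ThmA X p t := by
  intro g θ l hg hu hθ hw hl hL
  obtain ⟨G, τ, hG, hτ, hcov⟩ := hD g θ l hg hu hθ hw hl
  have hρ : 0 ≤ 2 * p := by linarith
  have hl1 : 1 ≤ l := (ell_pos t).trans hl
  have hlR : (0 : ℝ) < (l : ℝ) ^ bb t := by positivity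
  have hbig : ∀ S, big g θ ((l : ℝ) ^ (bb t)) S = 0 := by
    intro S
    unfold big
    split_ifs with h
    · by_contra hne
      have hcard := hu S hne
      have hS : S.Nonempty := card_pos.1 (by omega)
      have h1 := hL S hS
      have h2 := mul_le_mul_of_nonneg_left (Lam_ge_self hg hρ S) hlR.le
      linarith
    · rfl
  have hcovG : ∀ e ∈ Ico 1 t, Cov p (fun T => BB e * τ e < ms (G e) T)
      ((1 / 2) ^ (l + t + 3)) := by
    intro e he
    obtain ⟨h1, h2⟩ := mem_Ico.1 he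
    obtain ⟨g1, g2, g3, g4, g5⟩ := hG e he
    have hτe : 0 < τ e := by
      by_contra hcon
      push Not at hcon
      have : (4 : ℝ) ^ t * τ e ≤ 0 := mul_nonpos_of_nonneg_of_nonpos (by positivity) hcon
      linarith
    refine hA e h1 h2 (G e) (τ e) (l + t + 3) g1 g2 hτe g3
      ((ell_mono h2.le).trans (hl.trans (by omega))) fun A hAne => ?_
    have hb : bb e ≤ bb (t - 1) := bb_mono (by omega)
    have hn : 2 * 4 ^ t * (l + t + 3) ^ bb e ≤ l ^ bb t :=
      (Nat.mul_le_mul_left _ (Nat.pow_le_pow_right (by omega) hb)).trans (num_rec ht1 hl)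
    have hn' : (2 : ℝ) * 4 ^ t * ((l + t + 3 : ℕ) : ℝ) ^ bb e ≤ (l : ℝ) ^ bb t := by
      exact_mod_cast hn
    have hLA := hL A hAne
    have hLam0 : 0 ≤ Lam g (2 * p) A := Lam_nonneg hg hρ A
    have hx : (0 : ℝ) ≤ ((l + t + 3 : ℕ) : ℝ) ^ bb e := by positivity
    -- multiply by `l ^ bb t`
    have key : 2 * 4 ^ t * (((l + t + 3 : ℕ) : ℝ) ^ bb e * Lam (G e) (2 * p) A) ≤
        2 * 4 ^ t * τ e := by
      calc 2 * 4 ^ t * (((l + t + 3 : ℕ) : ℝ) ^ bb e * Lam (G e) (2 * p) A)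
          = (2 * 4 ^ t * ((l + t + 3 : ℕ) : ℝ) ^ bb e) * Lam (G e) (2 * p) A := by ring
        _ ≤ (l : ℝ) ^ bb t * (2 * Lam g (2 * p) A) :=
            mul_le_mul hn' (g5 A) (Lam_nonneg g1 hρ A) hlR.le
        _ = 2 * ((l : ℝ) ^ bb t * Lam g (2 * p) A) := by ring
        _ ≤ 2 * θ := by linarith
        _ ≤ 2 * 4 ^ t * τ e := by linarith
    have hpos : (0 : ℝ) < 2 * 4 ^ t := by positivity
    exact le_of_mul_le_mul_left key hpos
  have hex := Cov.exists_mem hp.le (Ico 1 t) hcovG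
  refine (hcov.or hp.le hex).mono (fun T hT => ?_) ?_
  · by_contra hcon
    push Not at hcon
    obtain ⟨c1, c2⟩ := hcon
    have e0 : ms (big g θ ((l : ℝ) ^ (bb t))) T = 0 := sum_eq_zero fun S _ => hbig S
    rw [e0, zero_add] at c1
    have e1 : ∑ e ∈ Ico 1 t, BB (t - e) * ms (G e) T ≤ ∑ e ∈ Ico 1 t, CC ^ t / 16 * τ e := by
      refine sum_le_sum fun e he => ?_
      calc BB (t - e) * ms (G e) T ≤ BB (t - e) * (BB e * τ e) :=
            mul_le_mul_of_nonneg_left (c2 e he) (BB_nonneg _)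
        _ = CC ^ t / 16 * τ e := by
            unfold BB
            have : CC ^ t = CC ^ (t - e) * CC ^ e := by
              rw [← pow_add]
              congr 1
              have := (mem_Ico.1 he).2
              omega
            rw [this]
            ring
    rw [← mul_sum] at e1
    have e2 : CC ^ t / 16 * ∑ e ∈ Ico 1 t, τ e ≤ CC ^ t / 16 * (3 / 2 * θ) :=
      mul_le_mul_of_nonneg_left hτ (by have := CC_pos; positivity)
    have hC := CC_pow_ge_aux ht1
    have e3 : 1024 * θ ≤ CC ^ t * θ := mul_le_mul_of_nonneg_right hC hθ.le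
    have hT' : CC ^ t / 4 * θ < ms g T := hT
    linarith
  · rw [sum_const, Nat.card_Ico, nsmul_eq_mul]
    have h1 : (1 / 2 : ℝ) ^ (l + t + 3) = (1 / 2) ^ l * ((1 / 2) ^ t / 8) := by
      rw [pow_add, pow_add]; norm_num; ring
    have h2 : ((t - 1 : ℕ) : ℝ) * (1 / 2) ^ t ≤ 1 := by
      have h3 : ((t - 1 : ℕ) : ℝ) ≤ 2 ^ t := by
        have h4 : t - 1 ≤ 2 ^ t := by
          have := Nat.lt_two_pow_self (n := t)
          omega
        exact_mod_cast h4
      calc ((t - 1 : ℕ) : ℝ) * (1 / 2) ^ t ≤ 2 ^ t * (1 / 2) ^ t :=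
            mul_le_mul_of_nonneg_right h3 (by positivity)
        _ = 1 := by rw [← mul_pow]; norm_num
    have h5 : (0 : ℝ) < (1 / 2) ^ l := by positivity
    rw [h1]
    have h6 : ((t - 1 : ℕ) : ℝ) * ((1 / 2) ^ l * ((1 / 2) ^ t / 8)) =
        (1 / 2) ^ l * (((t - 1 : ℕ) : ℝ) * (1 / 2) ^ t) / 8 := by ring
    rw [h6]
    nlinarith

end Vale.Agent.P034
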