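import Vale.Agent.P034.Tal.Base

/-!
# P034: sets of the first type
-/

namespace Vale.Agent.P034

open Finset

variable {X : Type*} [Fintype X] [DecidableEq X]

theorem fcost_Lam (g : Finset X → ℝ) (ρ a : ℝ) : fcost (Lam g ρ) a = fcost g (ρ + a) := by
  have h := seedCover_fcost g ρ 1 a
  rw [inv_one, one_mul] at h
  rw [← h]
  unfold fcost seedCover Lam
  refine sum_congr rfl fun A _ => ?_
  rw [inv_one, one_mul]

/-- The contraction of `g` at `F`. -/
noncomputable def ctr (g : Finset X → ℝ) (I : Finset (Finset X)) (E : Finset X → Finset X)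
    (F : Finset X) : Finset X → ℝ :=
  fun B => if Disjoint F B ∧ F ∪ B ∈ I ∧ E (F ∪ B) = F then g (F ∪ B) else 0

theorem ctr_nonneg {g : Finset X → ℝ} (hg : ∀ S, 0 ≤ g S) (I : Finset (Finset X))
    (E : Finset X → Finset X) (F B : Finset X) : 0 ≤ ctr g I E F B := by
  unfold ctr
  split_ifs
  · exact hg _
  · exact le_rfl

theorem ctr_ne {g : Finset X → ℝ} {I : Finset (Finset X)}
    {E : Finset X → Finset X} {F B : Finset X} (h : ctr g I E F B ≠ 0) :
    Disjoint F B ∧ F ∪ B ∈ I ∧ E (F ∪ B) = F ∧ ctr g I E F B = g (F ∪ B) ∧ g (F ∪ B) ≠ 0 := by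
  unfold ctr at h ⊢
  split_ifs at h ⊢ with h1
  · exact ⟨h1.1, h1.2.1, h1.2.2, rfl, h⟩
  · exact absurd rfl h

theorem ctr_sdiff {g : Finset X → ℝ} {I : Finset (Finset X)}
    {E : Finset X → Finset X} {F S : Finset X} (hS : S ∈ I) (hE : E S = F) (hFS : F ⊆ S) :
    ctr g I E F (S \ F) = g S := by
  unfold ctr
  have h : F ∪ S \ F = S := union_sdiff_of_subset hFS
  rw [h, if_pos ⟨disjoint_sdiff, hS, hE⟩]

/-- A sum over the support of the contraction. -/
theorem sum_ctr {g : Finset X → ℝ} {I : Finset (Finset X)}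
    {E : Finset X → Finset X} {F : Finset X} (hE : ∀ S ∈ I, E S ⊆ S) (P : Finset X → Prop)
    [DecidablePred P] (c : Finset X → ℝ) :
    ∑ B ∈ univ.filter P, ctr g I E F B * c B =
      ∑ S ∈ I.filter (fun S => E S = F ∧ P (S \ F)), g S * c (S \ F) := by
  symm
  have h1 : ∑ S ∈ I.filter (fun S => E S = F ∧ P (S \ F)), g S * c (S \ F) =
      ∑ B ∈ (I.filter (fun S => E S = F ∧ P (S \ F))).image (fun S => S \ F),
        ctr g I E F B * c B := by
    rw [sum_image]
    · refine sum_congr rfl fun S hS => ?_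
      obtain ⟨hSI, hSF, _⟩ := mem_filter.1 hS
      rw [ctr_sdiff hSI hSF (hSF ▸ hE S hSI)]
    · intro S hS S' hS' h
      have hS := mem_filter.1 (mem_coe.1 hS)
      have hS' := mem_filter.1 (mem_coe.1 hS')
      have e1 : F ∪ S \ F = S := union_sdiff_of_subset (hS.2.1 ▸ hE S hS.1)
      have e2 : F ∪ S' \ F = S' := union_sdiff_of_subset (hS'.2.1 ▸ hE S' hS'.1)
      simp only at h
      rw [← e1, ← e2, h]
  rw [h1]
  refine sum_subset ?_ ?_
  · intro B hB
    obtain ⟨S, hS, rfl⟩ := mem_image.1 hB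
    exact mem_filter.2 ⟨mem_univ _, (mem_filter.1 hS).2.2⟩
  · intro B hB hB'
    by_cases h : ctr g I E F B = 0
    · rw [h, zero_mul]
    · exfalso
      obtain ⟨hd, hI, hEF, _, _⟩ := ctr_ne h
      refine hB' (mem_image.2 ⟨F ∪ B, mem_filter.2 ⟨hI, hEF, ?_⟩, ?_⟩)
      · have : (F ∪ B) \ F = B := by
          rw [union_sdiff_left]; exact sdiff_eq_self_of_disjoint hd.symm
        rw [this]
        exact (mem_filter.1 hB).2
      · rw [union_sdiff_left]; exact sdiff_eq_self_of_disjoint hd.symm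

theorem fcost_ctr {g : Finset X → ℝ} {t : ℕ} (ht : ∀ S, g S ≠ 0 → S.card = t)
    {I : Finset (Finset X)} {E : Finset X → Finset X} {F : Finset X} (hE : ∀ S ∈ I, E S ⊆ S)
    (ρ : ℝ) : fcost (ctr g I E F) ρ = ∑ S ∈ I.filter (fun S => E S = F), g S * ρ ^ (t - F.card) := by
  have h := sum_ctr (g := g) (F := F) hE (fun _ => True) (fun B => ρ ^ B.card)
  unfold fcost
  rw [filter_true] at h
  rw [h]
  refine (sum_congr (by simp) fun S hS => ?_)
  have hS := mem_filter.1 hS
  by_cases h0 : g S = 0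
  · rw [h0]; simp
  · rw [card_sdiff_of_subset (hS.2 ▸ hE S hS.1), ht S h0]

theorem Lam_ctr_le {g : Finset X → ℝ} (hg : ∀ S, 0 ≤ g S)
    {I : Finset (Finset X)} {E : Finset X → Finset X} {F : Finset X} (hE : ∀ S ∈ I, E S ⊆ S)
    {ρ : ℝ} (hρ : 0 ≤ ρ) (A : Finset X) :
    Lam (ctr g I E F) ρ A ≤ Lam g ρ (F ∪ A) := by
  unfold Lam
  rw [sum_ctr hE (fun B => A ⊆ B) (fun B => ρ ^ (B \ A).card)]
  have h1 : ∀ S ∈ I.filter (fun S => E S = F ∧ A ⊆ S \ F),
      g S * ρ ^ ((S \ F) \ A).card = g S * ρ ^ (S \ (F ∪ A)).card := by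
    intro S _
    rw [sdiff_sdiff_left]
    rfl
  rw [sum_congr rfl h1]
  refine sum_le_sum_of_subset_of_nonneg ?_ fun S _ _ => mul_nonneg (hg S) (pow_nonneg hρ _)
  intro S hS
  obtain ⟨hSI, hSF, hA⟩ := mem_filter.1 hS
  refine mem_filter.2 ⟨mem_univ _, union_subset (hSF ▸ hE S hSI) (hA.trans sdiff_subset)⟩

/-- One contraction. -/
theorem one_ctr {p : ℝ} (hp : 0 < p) {t : ℕ}
    (hA : ∀ d, 1 ≤ d → d < t → ThmA X p d)
    {g : Finset X → ℝ} (hg : ∀ S, 0 ≤ g S) (ht : ∀ S, g S ≠ 0 → S.card = t)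
    {θ : ℝ} {l : ℕ} (hl : ell t ≤ l)
    (I : Finset (Finset X)) (E : Finset X → Finset X)
    (hI : ∀ S ∈ I, 0 < g S ∧ Wit g (2 * p) θ t l (E S) S) {F : Finset X} (hF : F ∈ I.image E) :
    Cov p (fun T => F ⊆ T ∧ BB (t - F.card) * GI g (2 * p) t I E F.card F <
      ms (ctr g I E F) T) (p ^ F.card * (1 / 2) ^ (lE g (2 * p) θ t l F)) := by
  have hρ : 0 < 2 * p := by linarith
  obtain ⟨S0, hS0, rfl⟩ := mem_image.1 hF
  obtain ⟨hgS0, hne, hss, hW⟩ := hI S0 hS0
  set F := E S0 with hFdef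
  have hEs : ∀ S ∈ I, E S ⊆ S := fun S hS => (hI S hS).2.2.1.subset
  have hcS0 : S0.card = t := ht S0 hgS0.ne'
  have hF1 : 1 ≤ F.card := hne.card_pos
  have hFt : F.card < t := hcS0 ▸ card_lt_card hss
  have hΛ0 : 0 < Lam g (2 * p) F := by
    have h1 := single_le_sum (s := univ.filter (fun T => F ⊆ T))
      (f := fun T => g T * (2 * p) ^ (T \ F).card)
      (fun T _ => mul_nonneg (hg T) (pow_nonneg hρ.le _))
      (mem_filter.2 ⟨mem_univ S0, hss.subset⟩)
    exact lt_of_lt_of_le (mul_pos hgS0 (pow_pos hρ _)) h1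
  have hGI : GI g (2 * p) t I E F.card F = fcost (ctr g I E F) (2 * p) +
      (1 / 4) ^ t * Lam g (2 * p) F := by
    rw [fcost_ctr ht hEs]
    unfold GI
    rw [if_pos rfl]
  have hfn : 0 ≤ fcost (ctr g I E F) (2 * p) := fcost_nonneg (ctr_nonneg hg I E F) hρ.le
  have h4 : (0 : ℝ) < (1 / 4) ^ t := by positivity
  have hGIpos : 0 < GI g (2 * p) t I E F.card F := by
    rw [hGI]
    have := mul_pos h4 hΛ0
    linarith
  have hl8 : 8 ≤ l := by
    refine le_trans ?_ hl
    unfold ell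
    calc 8 = 8 ^ 1 := by norm_num
      _ ≤ 8 ^ (t + 1) := Nat.pow_le_pow_right (by norm_num) (by omega)
  have hlE : l ≤ lE g (2 * p) θ t l F := by
    unfold lE
    rw [add_assoc]
    exact Nat.le_add_right _ _
  obtain ⟨G, hG, hGc⟩ := hA (t - F.card) (by omega) (by omega) (ctr g I E F)
    (GI g (2 * p) t I E F.card F) (lE g (2 * p) θ t l F) (ctr_nonneg hg I E F)
    (by
      intro B hB
      obtain ⟨hd, hI', hEF, _, hgn⟩ := ctr_ne hB
      have h1 := ht _ hgn
      rw [card_union_of_disjoint hd] at h1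
      omega)
    hGIpos
    (by
      rw [hGI]
      have := mul_pos h4 hΛ0
      linarith)
    (by
      refine le_trans ?_ (hl.trans hlE)
      unfold ell
      exact Nat.pow_le_pow_right (by norm_num) (by omega))
    (by
      intro A hA0
      by_cases hz : Lam (ctr g I E F) (2 * p) A = 0
      · rw [hz, mul_zero]; exact hGIpos.le
      · have hex : ∃ B ∈ univ.filter (fun S => A ⊆ S), ctr g I E F B * (2 * p) ^ (B \ A).card ≠ 0 :=
          exists_ne_zero_of_sum_ne_zero hz
        obtain ⟨B, hB, hBne⟩ := hex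
        have hAB := (mem_filter.1 hB).2
        obtain ⟨hd, hI', hEF, _, hgn⟩ := ctr_ne (left_ne_zero_of_mul hBne)
        obtain ⟨_, _, _, hW'⟩ := hI _ hI'
        rw [hEF] at hW'
        have hsub : A ⊆ (F ∪ B) \ F := by
          rw [union_sdiff_left, sdiff_eq_self_of_disjoint hd.symm]
          exact hAB
        have h1 := hW' A hA0 hsub
        have h2 := Lam_ctr_le hg (F := F) hEs hρ.le A
        have h3 : ((lE g (2 * p) θ t l F : ℕ) : ℝ) ^ bb (t - F.card) ≤
            ((lE g (2 * p) θ t l F : ℕ) : ℝ) ^ bb (t - 1) := by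
          refine pow_le_pow_right₀ ?_ (bb_mono (by omega))
          have hl1 : 1 ≤ lE g (2 * p) θ t l F := by omega
          exact_mod_cast hl1
        have hLn := Lam_nonneg hg hρ.le (F ∪ A)
        have hlp : (0 : ℝ) ≤ ((lE g (2 * p) θ t l F : ℕ) : ℝ) ^ bb (t - 1) := by positivity
        calc ((lE g (2 * p) θ t l F : ℕ) : ℝ) ^ bb (t - F.card) * Lam (ctr g I E F) (2 * p) A
            ≤ ((lE g (2 * p) θ t l F : ℕ) : ℝ) ^ bb (t - 1) * Lam g (2 * p) (F ∪ A) :=
              mul_le_mul h3 h2 (Lam_nonneg (ctr_nonneg hg I E F) hρ.le A) hlp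
          _ = (1 / 4) ^ t * (4 ^ t * ((lE g (2 * p) θ t l F : ℕ) : ℝ) ^ bb (t - 1) *
                Lam g (2 * p) (F ∪ A)) := by
              have h44 : ((1 : ℝ) / 4) ^ t * 4 ^ t = 1 := by
                rw [← mul_pow]; norm_num
              calc _ = 1 * (((lE g (2 * p) θ t l F : ℕ) : ℝ) ^ bb (t - 1) *
                    Lam g (2 * p) (F ∪ A)) := by ring
                _ = ((1 / 4) ^ t * 4 ^ t) * (((lE g (2 * p) θ t l F : ℕ) : ℝ) ^ bb (t - 1) *
                    Lam g (2 * p) (F ∪ A)) := by rw [h44]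
                _ = _ := by ring
          _ ≤ (1 / 4) ^ t * Lam g (2 * p) F := mul_le_mul_of_nonneg_left h1 h4.le
          _ ≤ GI g (2 * p) t I E F.card F := by rw [hGI]; linarith)
  refine ⟨(G.filter (fun U => Disjoint F U)).image (fun U => F ∪ U), ?_, ?_⟩
  · rintro T ⟨hFT, hT⟩
    have h1 : ms (ctr g I E F) T ≤ ms (ctr g I E F) (T \ F) := by
      unfold ms
      have h2 : ∑ S ∈ T.powerset, ctr g I E F S =
          ∑ S ∈ T.powerset.filter (fun S => ctr g I E F S ≠ 0), ctr g I E F S :=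
        (sum_filter_ne_zero T.powerset).symm
      rw [h2]
      refine sum_le_sum_of_subset_of_nonneg ?_ fun S _ _ => ctr_nonneg hg I E F S
      intro S hS
      obtain ⟨hS1, hS2⟩ := mem_filter.1 hS
      obtain ⟨hd, _⟩ := ctr_ne hS2
      rw [mem_powerset] at hS1 ⊢
      exact subset_sdiff.2 ⟨hS1, hd.symm⟩
    obtain ⟨U, hU, hUT⟩ := hG (T \ F) (lt_of_lt_of_le hT h1)
    refine ⟨F ∪ U, mem_image.2 ⟨U, mem_filter.2 ⟨hU, ?_⟩, rfl⟩, ?_⟩
    · exact (subset_sdiff.1 hUT).2.symm
    · exact union_subset hFT (hUT.trans sdiff_subset)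
  · have h1 : cost p ((G.filter (fun U => Disjoint F U)).image (fun U => F ∪ U)) =
        ∑ U ∈ G.filter (fun U => Disjoint F U), p ^ (F ∪ U).card := by
      unfold cost
      rw [sum_image]
      intro U hU U' hU' h
      have hd := (mem_filter.1 (mem_coe.1 hU)).2
      have hd' := (mem_filter.1 (mem_coe.1 hU')).2
      have e1 : (F ∪ U) \ F = U := by
        rw [union_sdiff_left]; exact sdiff_eq_self_of_disjoint hd.symm
      have e2 : (F ∪ U') \ F = U' := by
        rw [union_sdiff_left]; exact sdiff_eq_self_of_disjoint hd'.symm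
      simp only at h
      rw [← e1, ← e2, h]
    rw [h1]
    calc ∑ U ∈ G.filter (fun U => Disjoint F U), p ^ (F ∪ U).card
        = p ^ F.card * ∑ U ∈ G.filter (fun U => Disjoint F U), p ^ U.card := by
          rw [mul_sum]
          refine sum_congr rfl fun U hU => ?_
          rw [card_union_of_disjoint (mem_filter.1 hU).2, pow_add]
      _ ≤ p ^ F.card * cost p G := by
          refine mul_le_mul_of_nonneg_left ?_ (pow_nonneg hp.le _)
          exact sum_le_sum_of_subset_of_nonneg (filter_subset _ _)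
            fun _ _ _ => pow_nonneg hp.le _
      _ ≤ _ := mul_le_mul_of_nonneg_left hGc (pow_nonneg hp.le _)

/-- The mass of the sets of the first type. -/
theorem ms_typeI_le {g : Finset X → ℝ} (hg : ∀ S, 0 ≤ g S)
    {I : Finset (Finset X)} {E : Finset X → Finset X} (hE : ∀ S ∈ I, E S ⊆ S)
    (T : Finset X) :
    ms (fun S => if S ∈ I then g S else 0) T ≤
      ∑ F ∈ (I.image E).filter (fun F => F ⊆ T), ms (ctr g I E F) T := by
  have h1 : ms (fun S => if S ∈ I then g S else 0) T =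
      ∑ S ∈ I.filter (fun S => S ⊆ T), g S := by
    unfold ms
    rw [← sum_filter]
    refine sum_congr ?_ fun _ _ => rfl
    ext S
    simp only [mem_filter, mem_powerset]
    tauto
  rw [h1]
  rw [← sum_fiberwise_of_maps_to (s := I.filter (fun S => S ⊆ T))
    (t := (I.image E).filter (fun F => F ⊆ T)) (g := E)]
  · refine sum_le_sum fun F hF => ?_
    have h2 := sum_ctr (g := g) (F := F) hE (fun B => B ⊆ T) (fun _ => 1)
    simp only [mul_one] at h2
    have h3 : ms (ctr g I E F) T = ∑ B ∈ univ.filter (fun B => B ⊆ T), ctr g I E F B := by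
      unfold ms
      refine sum_congr ?_ fun _ _ => rfl
      ext B; simp
    rw [h3, h2]
    refine sum_le_sum_of_subset_of_nonneg ?_ fun S _ _ => hg S
    intro S hS
    rw [mem_filter, mem_filter] at hS
    exact mem_filter.2 ⟨hS.1.1, hS.2, sdiff_subset.trans hS.1.2⟩
  · intro S hS
    rw [mem_filter] at hS
    exact mem_filter.2 ⟨mem_image_of_mem E hS.1, (hE S hS.1).trans hS.2⟩

theorem type_one {p : ℝ} (hp : 0 < p) (hp1 : 2 * p ≤ 1) {t : ℕ} (ht1 : 1 ≤ t)
    (hA : ∀ d, 1 ≤ d → d < t → ThmA X p d)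
    {g : Finset X → ℝ} (hg : ∀ S, 0 ≤ g S) (ht : ∀ S, g S ≠ 0 → S.card = t)
    {θ : ℝ} (hθ : 0 < θ) (hw : fcost g (2 * p) ≤ θ) {l : ℕ} (hl : ell t ≤ l)
    (I : Finset (Finset X)) (E : Finset X → Finset X)
    (hI : ∀ S ∈ I, 0 < g S ∧ Wit g (2 * p) θ t l (E S) S) :
    Cov p (fun T => ∑ e ∈ Ico 1 t, BB (t - e) * ms (GI g (2 * p) t I E e) T <
      ms (fun S => if S ∈ I then g S else 0) T) (1 / 8 * (1 / 2) ^ l) := by
  have hρ : 0 < 2 * p := by linarith
  have hEs : ∀ S ∈ I, E S ⊆ S := fun S hS => (hI S hS).2.2.1.subset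
  have hmem : ∀ F ∈ I.image E, 1 ≤ F.card ∧ F.card < t ∧ 0 < Lam g (2 * p) F := by
    intro F hF
    obtain ⟨S0, hS0, rfl⟩ := mem_image.1 hF
    obtain ⟨hgS0, hne, hss, -⟩ := hI S0 hS0
    refine ⟨hne.card_pos, (ht S0 hgS0.ne') ▸ card_lt_card hss, ?_⟩
    have h1 := single_le_sum (s := univ.filter (fun T => E S0 ⊆ T))
      (f := fun T => g T * (2 * p) ^ (T \ E S0).card)
      (fun T _ => mul_nonneg (hg T) (pow_nonneg hρ.le _))
      (mem_filter.2 ⟨mem_univ S0, hss.subset⟩)
    exact lt_of_lt_of_le (mul_pos hgS0 (pow_pos hρ _)) h1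
  have hGIn : ∀ (e : ℕ) (F : Finset X), 0 ≤ GI g (2 * p) t I E e F := by
    intro e F
    unfold GI
    split_ifs
    · refine add_nonneg (sum_nonneg fun S _ => mul_nonneg (hg S) (pow_nonneg hρ.le _))
        (mul_nonneg (by positivity) (Lam_nonneg hg hρ.le F))
    · exact le_rfl
  have hcov := Cov.exists_mem hp.le (I.image E)
    (F := fun F T => F ⊆ T ∧ BB (t - F.card) * GI g (2 * p) t I E F.card F <
      ms (ctr g I E F) T) (c := fun F => p ^ F.card * (1 / 2) ^ (lE g (2 * p) θ t l F))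
    (fun F hF => one_ctr hp hA hg ht hl I E hI hF)
  refine hcov.mono ?_ ?_
  · intro T hT
    by_contra hcon
    push Not at hcon
    refine absurd hT (not_lt.2 ?_)
    calc ms (fun S => if S ∈ I then g S else 0) T
        ≤ ∑ F ∈ (I.image E).filter (fun F => F ⊆ T), ms (ctr g I E F) T := ms_typeI_le hg hEs T
      _ ≤ ∑ F ∈ (I.image E).filter (fun F => F ⊆ T),
            BB (t - F.card) * GI g (2 * p) t I E F.card F := by
          refine sum_le_sum fun F hF => ?_
          obtain ⟨h1, h2⟩ := mem_filter.1 hF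
          exact hcon F h1 h2
      _ = ∑ e ∈ Ico 1 t, ∑ F ∈ ((I.image E).filter (fun F => F ⊆ T)).filter
            (fun F => F.card = e), BB (t - F.card) * GI g (2 * p) t I E F.card F := by
          rw [sum_fiberwise_of_maps_to]
          intro F hF
          obtain ⟨h1, h2⟩ := mem_filter.1 hF
          have := hmem F h1
          exact mem_Ico.2 ⟨this.1, this.2.1⟩
      _ ≤ ∑ e ∈ Ico 1 t, BB (t - e) * ms (GI g (2 * p) t I E e) T := by
          refine sum_le_sum fun e _ => ?_
          unfold ms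
          rw [mul_sum]
          have h5 : ∀ F ∈ ((I.image E).filter (fun F => F ⊆ T)).filter (fun F => F.card = e),
              BB (t - F.card) * GI g (2 * p) t I E F.card F =
                BB (t - e) * GI g (2 * p) t I E e F := by
            intro F hF
            rw [(mem_filter.1 hF).2]
          rw [sum_congr rfl h5]
          refine sum_le_sum_of_subset_of_nonneg ?_
            fun F _ _ => mul_nonneg (BB_nonneg _) (hGIn _ _)
          intro F hF
          rw [mem_filter, mem_filter] at hF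
          exact mem_powerset.2 hF.1.2
  · have hLn : ∀ F : Finset X, 0 ≤ Lam g (2 * p) F := fun F => Lam_nonneg hg hρ.le F
    have h1 : ∀ F ∈ I.image E, p ^ F.card * (1 / 2) ^ (lE g (2 * p) θ t l F) ≤
        (1 / 2) ^ (l + 8 ^ t) / θ * (Lam g (2 * p) F * p ^ F.card) := by
      intro F hF
      have hΛ := (hmem F hF).2.2
      have hk : θ ≤ 2 ^ kk θ (Lam g (2 * p) F) * Lam g (2 * p) F := by
        have hne : {k : ℕ | θ ≤ 2 ^ k * Lam g (2 * p) F}.Nonempty := by
          obtain ⟨k, hk⟩ := pow_unbounded_of_one_lt (θ / Lam g (2 * p) F) (one_lt_two (α := ℝ))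
          refine ⟨k, ?_⟩
          have := hk.le
          rw [div_le_iff₀ hΛ] at this
          exact this
        exact Nat.sInf_mem hne
      unfold lE
      rw [pow_add (1 / 2 : ℝ) (l + 8 ^ t)]
      have h2 : ((1 : ℝ) / 2) ^ kk θ (Lam g (2 * p) F) ≤ Lam g (2 * p) F / θ := by
        rw [le_div_iff₀ hθ, one_div, inv_pow, inv_mul_le_iff₀ (by positivity)]
        exact hk
      calc p ^ F.card * ((1 / 2) ^ (l + 8 ^ t) * (1 / 2) ^ kk θ (Lam g (2 * p) F))
          ≤ p ^ F.card * ((1 / 2) ^ (l + 8 ^ t) * (Lam g (2 * p) F / θ)) := by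
            refine mul_le_mul_of_nonneg_left ?_ (by positivity)
            exact mul_le_mul_of_nonneg_left h2 (by positivity)
        _ = _ := by ring
    have h2 : ∑ F ∈ I.image E, Lam g (2 * p) F * p ^ F.card ≤ 2 ^ t * θ := by
      calc ∑ F ∈ I.image E, Lam g (2 * p) F * p ^ F.card
          ≤ fcost (Lam g (2 * p)) p := by
            unfold fcost
            exact sum_le_sum_of_subset_of_nonneg (subset_univ _)
              fun F _ _ => mul_nonneg (hLn F) (pow_nonneg hp.le _)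
        _ = fcost g (2 * p + p) := fcost_Lam g _ _
        _ ≤ 2 ^ t * fcost g (2 * p) := by
            unfold fcost
            rw [mul_sum]
            refine sum_le_sum fun S _ => ?_
            by_cases h0 : g S = 0
            · rw [h0]; simp
            · rw [ht S h0]
              calc g S * (2 * p + p) ^ t ≤ g S * (2 * (2 * p)) ^ t := by
                    refine mul_le_mul_of_nonneg_left ?_ (hg S)
                    exact pow_le_pow_left₀ (by positivity) (by linarith) _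
                _ = 2 ^ t * (g S * (2 * p) ^ t) := by rw [mul_pow 2 (2 * p)]; ring
        _ ≤ 2 ^ t * θ := mul_le_mul_of_nonneg_left hw (by positivity)
    have h8 : t + 3 ≤ 8 ^ t := by
      have hgen : ∀ n : ℕ, 1 ≤ n → n + 3 ≤ 8 ^ n := by
        intro n hn
        induction n, hn using Nat.le_induction with
        | base => norm_num
        | succ n hn ih => rw [pow_succ]; omega
      exact hgen t ht1
    have h3 : ((1 : ℝ) / 2) ^ (l + 8 ^ t) ≤ (1 / 2) ^ (l + (t + 3)) :=
      pow_le_pow_of_le_one (by norm_num) (by norm_num) (by omega)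
    calc ∑ F ∈ I.image E, p ^ F.card * (1 / 2) ^ (lE g (2 * p) θ t l F)
        ≤ ∑ F ∈ I.image E, (1 / 2) ^ (l + 8 ^ t) / θ * (Lam g (2 * p) F * p ^ F.card) :=
          sum_le_sum h1
      _ = (1 / 2) ^ (l + 8 ^ t) / θ * ∑ F ∈ I.image E, Lam g (2 * p) F * p ^ F.card := by
          rw [mul_sum]
      _ ≤ (1 / 2) ^ (l + 8 ^ t) / θ * (2 ^ t * θ) :=
          mul_le_mul_of_nonneg_left h2 (by positivity)
      _ = (1 / 2) ^ (l + 8 ^ t) * 2 ^ t := by field_simp
      _ ≤ (1 / 2) ^ (l + (t + 3)) * 2 ^ t := mul_le_mul_of_nonneg_right h3 (by positivity)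
      _ = 1 / 8 * (1 / 2) ^ l := by
          have : ((1 : ℝ) / 2) ^ t * 2 ^ t = 1 := by rw [← mul_pow]; norm_num
          rw [pow_add, pow_add]
          calc (1 / 2 : ℝ) ^ l * ((1 / 2) ^ t * (1 / 2) ^ 3) * 2 ^ t
              = (1 / 2) ^ l * (1 / 2) ^ 3 * ((1 / 2) ^ t * 2 ^ t) := by ring
            _ = _ := by rw [this]; ring

end Vale.Agent.P034
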